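import Mathlib

/-! A Bernstein-type checker for nonnegativity of integer polynomials in two variables. -/

namespace Vale.Agent.P237C.Chk

/-- Value of a list of coefficients. -/
noncomputable def ev : List ℤ → ℝ → ℝ
  | [], _ => 0
  | c :: p, y => c + y * ev p y

/-- Value of a list of lists of coefficients. -/
noncomputable def ev2 : List (List ℤ) → ℝ → ℝ → ℝ
  | [], _, _ => 0
  | c :: p, x, y => ev c y + x * ev2 p x y

def add1 : List ℤ → List ℤ → List ℤ
  | [], q => q
  | a :: p, [] => a :: p
  | a :: p, b :: q => (a + b) :: add1 p q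

def add2 : List (List ℤ) → List (List ℤ) → List (List ℤ)
  | [], q => q
  | a :: p, [] => a :: p
  | a :: p, b :: q => add1 a b :: add2 p q

def sm1 (c : ℤ) : List ℤ → List ℤ
  | [] => []
  | a :: p => (c * a) :: sm1 c p

def mul1 : List ℤ → List ℤ → List ℤ
  | [], _ => []
  | a :: p, q => add1 (sm1 a q) (0 :: mul1 p q)

def sm2 (c : List ℤ) : List (List ℤ) → List (List ℤ)
  | [] => []
  | a :: p => mul1 c a :: sm2 c p

def mul2 : List (List ℤ) → List (List ℤ) → List (List ℤ)
  | [], _ => []
  | a :: p, q => add2 (sm2 a q) ([] :: mul2 p q)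

def sc (c : ℤ) : List (List ℤ) → List (List ℤ)
  | [] => []
  | a :: p => sm1 c a :: sc c p

def step (c : List ℤ) (r : List (List ℤ)) : List (List ℤ) := add2 (c :: r) r

def sh : List (List ℤ) → List (List ℤ)
  | [] => []
  | c :: p => step c (sh p)

def hf : List (List ℤ) → List (List ℤ)
  | [] => []
  | c :: p => sm1 (2 ^ p.length) c :: hf p

def rv : List (List ℤ) → List (List ℤ) → List (List ℤ)
  | [], r => r
  | c :: p, r => rv p (step c r)

def zc : List ℤ → List (List ℤ) → List (List ℤ)
  | [], s => s.map fun r => 0 :: r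
  | a :: p, [] => [a] :: zc p []
  | a :: p, r :: s => (a :: r) :: zc p s

def tr : List (List ℤ) → List (List ℤ)
  | [] => []
  | c :: p => zc c (tr p)

def bern (P : List (List ℤ)) : Bool :=
  (rv (tr (rv P [])) []).all fun c => c.all fun a => decide (0 ≤ a)

def chk : ℕ → List (List ℤ) → List (List (List ℤ)) → Bool
  | 0, _, _ => false
  | k + 1, P, gs => gs.any (fun g => bern (sc (-1) g)) || bern P ||
      (chk k (tr (hf P)) (gs.map fun g => tr (hf g)) &&
        chk k (tr (sh (hf P))) (gs.map fun g => tr (sh (hf g))))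

theorem ev_add1 (p q : List ℤ) (y : ℝ) : ev (add1 p q) y = ev p y + ev q y := by
  induction p generalizing q with
  | nil => simp [add1, ev]
  | cons a p ih => cases q <;> simp [add1, ev, ih]; ring

theorem ev_add (p q : List (List ℤ)) (x y : ℝ) : ev2 (add2 p q) x y = ev2 p x y + ev2 q x y := by
  induction p generalizing q with
  | nil => simp [add2, ev2]
  | cons a p ih => cases q <;> simp [add2, ev2, ih, ev_add1]; ring

theorem ev_sm1 (c : ℤ) (p : List ℤ) (y : ℝ) : ev (sm1 c p) y = c * ev p y := by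
  induction p with
  | nil => simp [sm1, ev]
  | cons a p ih => simp [sm1, ev, ih]; ring

theorem ev_mul1 (p q : List ℤ) (y : ℝ) : ev (mul1 p q) y = ev p y * ev q y := by
  induction p with
  | nil => simp [mul1, ev]
  | cons a p ih => simp [mul1, ev, ih, ev_add1, ev_sm1]; ring

theorem ev_sm2 (c : List ℤ) (p : List (List ℤ)) (x y : ℝ) :
    ev2 (sm2 c p) x y = ev c y * ev2 p x y := by
  induction p with
  | nil => simp [sm2, ev2]
  | cons a p ih => simp [sm2, ev2, ih, ev_mul1]; ring

theorem ev_mul (p q : List (List ℤ)) (x y : ℝ) : ev2 (mul2 p q) x y = ev2 p x y * ev2 q x y := by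
  induction p with
  | nil => simp [mul2, ev2]
  | cons a p ih => simp [mul2, ev2, ev, ih, ev_add, ev_sm2]; ring

theorem ev_sc (c : ℤ) (p : List (List ℤ)) (x y : ℝ) : ev2 (sc c p) x y = c * ev2 p x y := by
  induction p with
  | nil => simp [sc, ev2]
  | cons a p ih => simp [sc, ev2, ih, ev_sm1]; ring

theorem ev_step (c : List ℤ) (r : List (List ℤ)) (x y : ℝ) :
    ev2 (step c r) x y = ev c y + (x + 1) * ev2 r x y := by
  simp [step, ev_add, ev2]; ring

theorem ev_sh (p : List (List ℤ)) (x y : ℝ) : ev2 (sh p) x y = ev2 p (x + 1) y := by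
  induction p with
  | nil => simp [sh, ev2]
  | cons a p ih => simp [sh, ev2, ih, ev_step]

theorem ev_hf (p : List (List ℤ)) (x y : ℝ) :
    2 * ev2 (hf p) (2 * x) y = 2 ^ p.length * ev2 p x y := by
  induction p with
  | nil => simp [hf, ev2]
  | cons a p ih =>
    simp only [hf, ev2, ev_sm1, List.length_cons]
    push_cast
    linear_combination 2 * x * ih

theorem ev_rv (p r : List (List ℤ)) {x z : ℝ} (h : x * (z + 1) = 1) (y : ℝ) :
    x ^ p.length * ev2 (rv p r) z y = ev2 r z y + x * ev2 p x y := by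
  induction p generalizing r with
  | nil => simp [rv, ev2]
  | cons a p ih =>
    have := ih (step a r)
    rw [ev_step] at this
    simp only [rv, ev2, List.length_cons]
    linear_combination x * this + ev2 r z y * h

theorem ev_zc (c : List ℤ) (r : List (List ℤ)) (x y : ℝ) :
    ev2 (zc c r) y x = ev c y + x * ev2 r y x := by
  induction c generalizing r with
  | nil =>
    induction r with
    | nil => simp [zc, ev2, ev]
    | cons a r ih =>
      simp only [zc, ev2, ev, List.map_cons] at ih ⊢
      rw [ih]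
      push_cast
      ring
  | cons a c ih => cases r <;> simp [zc, ev2, ev, ih]; ring

theorem ev_tr (p : List (List ℤ)) (x y : ℝ) : ev2 (tr p) y x = ev2 p x y := by
  induction p with
  | nil => simp [tr, ev2]
  | cons a p ih => simp [tr, ev2, ih, ev_zc]

theorem ev_nonneg {p : List (List ℤ)} (h : (p.all fun c => c.all fun a => decide (0 ≤ a)) = true)
    {x y : ℝ} (hx : 0 ≤ x) (hy : 0 ≤ y) : 0 ≤ ev2 p x y := by
  induction p with
  | nil => simp [ev2]
  | cons c p ih =>
    rw [List.all_cons, Bool.and_eq_true] at h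
    refine add_nonneg ?_ (mul_nonneg hx (ih h.2))
    have h1 := h.1
    clear h
    induction c with
    | nil => simp [ev]
    | cons a c ih' =>
      rw [List.all_cons, Bool.and_eq_true, decide_eq_true_eq] at h1
      exact add_nonneg (by exact_mod_cast h1.1) (mul_nonneg hy (ih' h1.2))

theorem rv_nonneg {p : List (List ℤ)} {x y : ℝ} (h0 : 0 < x)
    (h : 0 ≤ ev2 (rv p []) ((1 - x) / x) y) : 0 ≤ ev2 p x y := by
  have := ev_rv p [] (x := x) (z := (1 - x) / x) (by field_simp; ring) y
  rw [ev2, zero_add] at this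
  exact nonneg_of_mul_nonneg_right (this ▸ mul_nonneg (pow_nonneg h0.le _) h) h0

theorem bern_sound {p : List (List ℤ)} (h : bern p = true) {x y : ℝ} (hx : x ∈ Set.Ioc (0 : ℝ) 1)
    (hy : y ∈ Set.Ioc (0 : ℝ) 1) : 0 ≤ ev2 p x y := by
  refine rv_nonneg hx.1 ?_
  rw [← ev_tr]
  exact rv_nonneg hy.1 (ev_nonneg h (div_nonneg (sub_nonneg.2 hy.2) hy.1.le)
    (div_nonneg (sub_nonneg.2 hx.2) hx.1.le))

theorem hf_pos {p : List (List ℤ)} {x y : ℝ} (h : 0 < ev2 p x y) : 0 < ev2 (hf p) (2 * x) y := by
  have := ev_hf p x y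
  have : 0 < 2 ^ p.length * ev2 p x y := by positivity
  linarith

theorem hf_nonneg {p : List (List ℤ)} {x y : ℝ} (h : 0 ≤ ev2 (hf p) (2 * x) y) : 0 ≤ ev2 p x y := by
  have := ev_hf p x y
  exact nonneg_of_mul_nonneg_right (a := 2 ^ p.length) (by linarith) (by positivity)

theorem chk_sound (k : ℕ) : ∀ {p : List (List ℤ)} {gs : List (List (List ℤ))},
    chk k p gs = true → ∀ {x y : ℝ}, x ∈ Set.Ioc (0 : ℝ) 1 → y ∈ Set.Ioc (0 : ℝ) 1 →
      (∀ g ∈ gs, 0 < ev2 g x y) → 0 ≤ ev2 p x y := by
  induction k with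
  | zero => intro p gs h; simp [chk] at h
  | succ k ih =>
    intro p gs h x y hx hy hg
    simp only [chk, Bool.or_eq_true, Bool.and_eq_true, List.any_eq_true] at h
    rcases h with (⟨g, hg', h⟩ | h) | ⟨h1, h2⟩
    · have h1 := bern_sound h hx hy
      rw [ev_sc] at h1
      have := hg g hg'
      push_cast at h1
      linarith
    · exact bern_sound h hx hy
    · refine hf_nonneg ?_
      rcases le_or_gt x (1 / 2) with h | h
      · rw [← ev_tr]
        refine ih h1 hy ⟨by linarith [hx.1], by linarith⟩ fun g hg' => ?_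
        obtain ⟨g', hg1, rfl⟩ := List.mem_map.1 hg'
        rw [ev_tr]
        exact hf_pos (hg g' hg1)
      · rw [← sub_add_cancel (2 * x) 1, ← ev_sh, ← ev_tr]
        refine ih h2 hy ⟨by linarith, by linarith [hx.2]⟩ fun g hg' => ?_
        obtain ⟨g', hg1, rfl⟩ := List.mem_map.1 hg'
        rw [ev_tr, ev_sh, sub_add_cancel]
        exact hf_pos (hg g' hg1)

end Vale.Agent.P237C.Chk
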