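import Vale.Agent.P237C.Cauchy

/-! Class reduction: a bound for the volume of K plus the second projection body of K.

PLAN.  L = projBody K = {G ≤ 1} (`exists_nrm`), m u = (n kappa n / 2 * (G u)⁻¹^n) • gradient G u,
integrable on the sphere (`LL.integrable_gradient`, bounded continuous factor).
projBody L ⊆ closure (Zon (sig n) m) by `mem_of_support`: for a direction v take
s u = sign ⟪gradient G u, v⟫ (measurable; `sg` in P237B/FH or an if-then-else), then
⟪∫ s • m, v⟫ = ∫ |⟪m, v⟫| ≥ hh L v ≥ ⟪x, v⟫ by `cauchy` and `mem_projBody`.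
hh K (gradient G u) = ⟪z, gradient G u⟫ ≤ G z ≤ 1 for some z ∈ L (`exists_support`, `fderiv_le`; if G is
not differentiable at u the gradient is 0), so 2 ∫ hh K (m u) ≤ n kappa n ∫ G⁻¹^n = n vol L
(`hh_smul_arg`, `vol_le_one`).  Apply `mink` with M = n vol L and `vol_mono`.
R_proj_le and cr_eq follow with `bm` for (K, projBody L): α + β ≤ α + vol L / α^(n-1). -/

namespace Vale.Agent.P237C

open Vale.Agent.P237B MeasureTheory Metric Set Real Filter Topology
open scoped Pointwise RealInnerProductSpace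

variable {n : ℕ} [NeZero n] {K : Set (E n)}

theorem cr (hK : IsBody K) {α : ℝ} (hα : 0 < α) (hα' : α ^ n = vol K) :
    vol (K + projBody (projBody K)) ≤ (α + vol (projBody K) / α ^ (n - 1)) ^ n := by
  exact vol_add_projBody_projBody hK hα hα'

theorem CR.le (hK : IsBody K) {α β : ℝ} (hα : 0 < α) (hβ : 0 < β) (hα' : α ^ n = vol K)
    (hβ' : β ^ n = vol (projBody (projBody K))) : β * α ^ (n - 1) ≤ vol (projBody K) := by
  have hL := body_proj (body_proj hK)
  have hV := (body_proj hK).vol_pos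
  have h2 := bm hK.1 hK.2.1 (hK.2.2.mono interior_subset) hL.1 hL.2.1
    (hL.2.2.mono interior_subset) hα.le hβ.le hα'.le hβ'.le
  have h3 := (pow_le_pow_iff_left₀ (by positivity) (by positivity) (NeZero.ne n)).1
    (h2.trans (cr hK hα hα'))
  rw [← le_div_iff₀ (pow_pos hα _)]
  linarith

omit [NeZero n] in
theorem CR.pw {α β a b : ℝ} (hα' : α ^ n = a) (hβ' : β ^ n = b) :
    (β * α ^ (n - 1)) ^ n = b * a ^ (n - 1) := by
  rw [← hβ', ← hα', mul_pow, ← pow_mul, ← pow_mul, mul_comm n]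

theorem R_proj_le (hK : IsBody K) : R (projBody K) ≤ R K := by
  have hL := body_proj hK
  obtain ⟨α, hα, hα'⟩ := exists_root (n := n) hK.vol_pos
  obtain ⟨β, hβ, hβ'⟩ := exists_root (n := n) (body_proj hL).vol_pos
  have h1 := pow_le_pow_left₀ (by positivity) (CR.le hK hα hβ hα' hβ') n
  rw [CR.pw hα' hβ', ← mul_pow_sub_one (NeZero.ne n)] at h1
  rw [R, R, div_le_div_iff₀ (pow_pos hL.vol_pos _) (pow_pos hK.vol_pos _)]
  exact h1

theorem cr_eq (hK : IsBody K) (h : R K ≤ R (projBody K)) {α β : ℝ} (hα : 0 < α) (hβ : 0 < β)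
    (hα' : α ^ n = vol K) (hβ' : β ^ n = vol (projBody (projBody K))) :
    β * α ^ (n - 1) = vol (projBody K) ∧ vol (K + projBody (projBody K)) ≤ (α + β) ^ n := by
  have hL := body_proj hK
  rw [R, R, div_le_div_iff₀ (pow_pos hK.vol_pos _) (pow_pos hL.vol_pos _),
    mul_pow_sub_one (NeZero.ne n), ← CR.pw hα' hβ'] at h
  have h1 := le_antisymm (CR.le hK hα hβ hα' hβ')
    ((pow_le_pow_iff_left₀ hL.vol_pos.le (by positivity) (NeZero.ne n)).1 h)
  have h2 := cr hK hα hα'
  rw [← h1, mul_div_cancel_right₀ _ (pow_pos hα _).ne'] at h2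
  exact ⟨h1, h2⟩

end Vale.Agent.P237C
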