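import Vale.Agent.P237C.Defs
import Vale.Agent.P237B.Cau

/-! One half of the Cauchy projection formula for the unit ball of a norm.

PLAN.  polar_vol: as `vol_le_one` in P237B/Sph2 (`polar_lintegral`, `Sph2.ray`), with an inequality
between indicators.  cauchy: L = {G ≤ 1}, g u = |⟪gradient G u, v⟫| (bounded by G v via
`IsNrm.fderiv_le` for v and -v, and 0 where G is not differentiable; measurable).  For ε > 0 the set
A = L + segment (-ε v) (ε v) is a translate of L + segment 0 (2 ε v), so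
vol A = vol L + 2 ε hh L v (`vol_add_seg`, `hh_smul_arg`, `vol_translate`).  If G is differentiable at
the unit vector u (a.e., `LL.ae_diff`) and r • u = l + s • v with G l ≤ 1, |s| ≤ ε, then
fderiv G u l ≤ G l ≤ 1 and fderiv G u u = G u (`Hom.euler`, or fderiv_le and the derivative of
t ↦ G (t • u)), so r G u ≤ 1 + ε g u.  polar_vol gives
vol A ≤ kappa n ∫ ((1 + ε g) / G)^n, and vol L = kappa n ∫ G⁻¹^n (`vol_le_one`).  With
(1 + a)^n ≤ 1 + n a (1 + a)^(n-1) and g ≤ G v:
2 ε hh L v ≤ kappa n * n * ε * (1 + ε G v)^(n-1) ∫ g G⁻¹^n; let ε tend to 0. -/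

namespace Vale.Agent.P237C

open Vale.Agent.P237B MeasureTheory Metric Set Real Filter Topology
open scoped Pointwise RealInnerProductSpace

variable {n : ℕ} [NeZero n]

theorem polar_vol {A : Set (E n)} (hA : MeasurableSet A) {ρ : E n → ℝ}
    (hi : Integrable (fun u => ρ u ^ n) (sig n)) (hp : ∀ᵐ u ∂sig n, 0 < ρ u)
    (h : ∀ᵐ u ∂sig n, ∀ r : ℝ, 0 < r → r • u ∈ A → r ≤ ρ u) :
    vol A ≤ kappa n * ∫ u, ρ u ^ n ∂sig n := by
  exact vol_le_radial hA (hp.and h) hi

theorem cauchy {G : E n → ℝ} (hG : IsNrm G) (v : E n) :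
    2 * hh {x | G x ≤ 1} v ≤
      n * kappa n * ∫ u, |⟪gradient G u, v⟫| * (G u)⁻¹ ^ n ∂sig n := by
  have h1 := Cau.hh_le_pos hG v
  have h2 := Cau.hh_le_pos hG (-v)
  have h3 := hh_smul_arg {x | G x ≤ 1} (-1) v
  rw [neg_one_smul, abs_neg, abs_one, one_mul] at h3
  simp only [map_neg] at h2
  have i1 := Cau.int_d hG v (φ := fun d => max d 0) (by fun_prop)
  have i2 := Cau.int_d hG v (φ := fun d => max (-d) 0) (by fun_prop)
  have e : ∀ u, |⟪gradient G u, v⟫| * (G u)⁻¹ ^ n =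
      (G u)⁻¹ ^ n * max (fderiv ℝ G u v) 0 + (G u)⁻¹ ^ n * max (-fderiv ℝ G u v) 0 := fun u => by
    rw [inner_gradient_left, ← mul_add, max_zero_add_max_neg_zero_eq_abs_self, mul_comm]
  simp only [e]
  rw [integral_add i1 i2]
  linarith

end Vale.Agent.P237C
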