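import Vale.Agent.P237C.Cert

/-! From the polynomial checks to the calibration inequality. -/

namespace Vale.Agent.P237C

open Chk

namespace Cert

theorem ev_one (x y : ℝ) : ev2 one x y = 1 := by simp [one, ev2, ev]
theorem ev_sub (p q : P2) (x y : ℝ) : ev2 (sub p q) x y = ev2 p x y - ev2 q x y := by
  simp [sub, ev_add, ev_sc, sub_eq_add_neg]
theorem ev_sq (p : P2) (x y : ℝ) : ev2 (sq p) x y = ev2 p x y ^ 2 := by
  rw [sq, ev_mul, pow_two]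
theorem ev_cb (p : P2) (x y : ℝ) : ev2 (cb p) x y = ev2 p x y ^ 3 := by
  rw [cb, ev_mul, ev_sq]; ring
theorem ev_X (x y : ℝ) : ev2 X x y = 1 - x := by simp [X, ev2, ev, sub_eq_add_neg]
theorem ev_Y1 (x y : ℝ) : ev2 Y1 x y = 1 - y := by simp [Y1, ev2, ev, sub_eq_add_neg]
theorem ev_Y2 (x y : ℝ) : ev2 Y2 x y = 4 - 3 * y := by simp [Y2, ev2, ev]; ring

theorem stage {σ t y T N E b A : ℝ} (hσ : σ ^ 2 = 1) (he : T ^ 2 = t ^ 2 + y ^ 2 - 1)
    (h1 : 1 - t ^ 2 = 2 * b * N) (h2 : y - t * T = N * (1 + b ^ 2))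
    (h3 : t * y - T = N * (1 - b ^ 2)) (h4 : (y - t * T) / (2 * (1 + T ^ 2)) = N * E) :
    Fc t y (σ * T) A T = T ^ 2 * N * (E - 2 * b * (A + 61 / 1000 * (4 - 6 * (1 - t ^ 2) - T ^ 2)) +
      σ * (-3 * s3 t y * (1 + b ^ 2) + T * (-2 * b * s3t t y + (1 - b ^ 2) * s3y t y)) +
      T * (-4 * s4 t y * (1 + b ^ 2) + T * (-2 * b * ((-250 + 68 * y) / 1000) +
        (1 - b ^ 2) * (68 * t / 1000)))) := by
  have e2 : (σ * T) ^ 2 = T ^ 2 := by rw [mul_pow, hσ, one_mul]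
  have e3 : (σ * T) ^ 3 = σ * T ^ 3 := by rw [pow_succ, e2]; ring
  have e4 : (σ * T) ^ 4 = T ^ 4 := by rw [show 4 = 2 * 2 from rfl, pow_mul, e2]; ring
  rw [Fc, St, Sy, e2, e3, e4, mul_div_assoc, h4]
  generalize s3 t y = p, s3t t y = pt, s3y t y = py, s4 t y = q, (-250 + 68 * y) / 1000 = qt,
    68 * t / 1000 = qy, A + 61 / 1000 * (4 - 6 * (1 - t ^ 2) - T ^ 2) = B
  linear_combination (-(T ^ 2 * B) - σ * T ^ 3 * pt - T ^ 4 * qt) * h1 -
    (3 * σ * T * p + 4 * T ^ 2 * q) * (T * h2 + t * he) + (σ * T ^ 3 * py + T ^ 4 * qy) * h3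

theorem ident (σ : ℤ) (hσ : (σ : ℝ) ^ 2 = 1) (A B : P2) (x y ρ : ℝ) {a b D : ℝ}
    (ha : ev2 A x y = a) (hb : ev2 B x y = b) (hD : 1 + a * b = D) (hD' : D ≠ 0) :
    Fc ((1 - a * b) / D) ((a + b) / D) (σ * ((b - a) / D))
        (295 / 1000 * (1 + ρ)) ((b - a) / D) * (1000 * (1 + a ^ 2) * D ^ 5) =
      ((b - a) / D) ^ 2 * (2 * a) *
        (ev2 (H0 σ A B) x y - 590 * (b * (1 + a ^ 2) * D ^ 3) * ρ) := by
  have ha' : 1 + a ^ 2 ≠ 0 := by positivity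
  have hb' : 1 + b ^ 2 ≠ 0 := by positivity
  have e : 1 + ((b - a) / D) ^ 2 = (1 + a ^ 2) * (1 + b ^ 2) / D ^ 2 := by
    field_simp
    rw [← hD]
    ring
  have e1 : 1 - ((1 - a * b) / D) ^ 2 = 4 * (a * b) / D ^ 2 := by
    field_simp
    rw [← hD]
    ring
  rw [stage (b := b) (N := 2 * a / D ^ 2) (E := D ^ 2 / (2 * (1 + a ^ 2))) hσ
    (by field_simp; rw [← hD]; ring) (by rw [e1]; ring) (by field_simp; rw [← hD]; ring)
    (by field_simp; rw [← hD]; ring) (by rw [e]; field_simp; rw [← hD]; ring), e1]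
  simp only [H0, H1, q3, q3t, q3y, q4, ev_add, ev_mul, ev_sc, ev_sub, ev_sq, ev_cb, ev_one, ha, hb,
    s3, s3t, s3y, s4, hD]
  generalize 1 - a * b = t, a + b = s, b - a = T, a * b = w, 1 + a ^ 2 = qa, 1 + b ^ 2 = qb,
    1 - b ^ 2 = mb at ha' ⊢
  push_cast
  field_simp
  ring

theorem Fc_nonneg (σ : ℤ) (hσ : (σ : ℝ) ^ 2 = 1) (A B M R : P2) (x y : ℝ) {a b m : ℝ}
    (ha : ev2 A x y = a) (hb : ev2 B x y = b) (ha0 : 0 ≤ a) (hb0 : 0 ≤ b) (hm : 0 ≤ m)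
    (hM : 0 < ev2 M x y) (h : 2 * ev2 M x y ≤ (2 + m) * ev2 R x y)
    (hP : 0 ≤ ev2 (Pq σ A B M R) x y) :
    0 ≤ Fc ((1 - a * b) / (1 + a * b)) ((a + b) / (1 + a * b)) (σ * ((b - a) / (1 + a * b)))
      (295 / 1000 * (1 + 2 / (2 + m))) ((b - a) / (1 + a * b)) := by
  have hD : 0 < 1 + a * b := by positivity
  refine nonneg_of_mul_nonneg_left ?_
    (show 0 < 1000 * (1 + a ^ 2) * (1 + a * b) ^ 5 by positivity)
  rw [ident σ hσ A B x y _ ha hb rfl hD.ne']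
  refine mul_nonneg (by positivity) (nonneg_of_mul_nonneg_left ?_ hM)
  simp only [Pq, ev_add, ev_mul, ev_sc, ev_sq, ev_cb, ev_one, ha, hb] at hP
  push_cast at hP
  have h1 : 2 / (2 + m) * ev2 M x y ≤ ev2 R x y := by
    rw [div_mul_eq_mul_div, div_le_iff₀ (by positivity)]
    linarith
  have h2 := mul_le_mul_of_nonneg_left h1
    (show 0 ≤ b * (1 + a ^ 2) * (1 + a * b) ^ 3 by positivity)
  linarith

theorem both {u v m : ℝ} (hu : 0 ≤ u) (huv : u < v) (hw : u * v ≤ 1)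
    (hy : (u + v) / (1 + u * v) ≤ 2) (hm : 0 ≤ m) {t y T : ℝ} (ht : t = (1 - u * v) / (1 + u * v))
    (hy' : y = (u + v) / (1 + u * v)) (hT : T = (v - u) / (1 + u * v))
    (h1 : y ≤ 1 → y * T ^ 3 / (1 + T ^ 2) ≤ m)
    (h2 : (y - t * T) / (1 + T ^ 2) * T ^ 3 / 2 + t ^ 3 / 2 + 3 / 2 * (y ^ 2 - 1) * t ≤ m) :
    0 ≤ Fc t y T (295 / 1000 * (1 + 2 / (2 + m))) T ∧
      0 ≤ Fc t y T (295 / 1000 * (1 + 2 / (2 + m))) (-T) := by
  have hv : 0 < v := hu.trans_lt huv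
  have hD : 0 < 1 + u * v := by positivity
  have hu1 : u < 1 := by nlinarith
  have hx : 1 - u ∈ Set.Ioc (0 : ℝ) 1 := ⟨by linarith, by linarith⟩
  have hX : ∀ z, ev2 X (1 - u) z = u := fun z => by rw [ev_X]; ring
  have hvu : 0 < v - u := sub_pos.2 huv
  have e : 1 + T ^ 2 = (1 + u ^ 2) * (1 + v ^ 2) / (1 + u * v) ^ 2 := by
    rw [hT]
    field_simp
    ring
  have fin : ∀ (Y M R : P2) (z : ℝ), ev2 Y (1 - u) z = v →
      0 < ev2 M (1 - u) z → 2 * ev2 M (1 - u) z ≤ (2 + m) * ev2 R (1 - u) z →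
      0 ≤ ev2 (Pq 1 X Y M R) (1 - u) z → 0 ≤ ev2 (Pq (-1) Y X M R) (1 - u) z →
      0 ≤ Fc t y T (295 / 1000 * (1 + 2 / (2 + m))) T ∧
        0 ≤ Fc t y T (295 / 1000 * (1 + 2 / (2 + m))) (-T) := by
    intro Y M R z hY hM h hP hP'
    have k1 := Fc_nonneg 1 (by norm_num) X Y M R _ z (hX z) hY hu hv.le hm hM h hP
    have k2 := Fc_nonneg (-1) (by norm_num) Y X M R _ z hY (hX z) hv.le hu hm hM h hP'
    rw [Int.cast_one, one_mul, ← ht, ← hy', ← hT] at k1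
    have e1 : (u - v) / (1 + u * v) = -T := by rw [hT, ← neg_div, neg_sub]
    rw [mul_comm v u, add_comm v u, ← ht, ← hy', e1] at k2
    push_cast at k2
    rw [neg_one_mul, neg_neg] at k2
    exact ⟨k1, k2⟩
  rcases lt_or_ge v 1 with h | h
  · have hz : 1 - v ∈ Set.Ioc (0 : ℝ) 1 := ⟨by linarith, by linarith⟩
    have hY : ev2 Y1 (1 - u) (1 - v) = v := by rw [ev_Y1]; ring
    have hg : ∀ g ∈ G1, 0 < ev2 g (1 - u) (1 - v) := by
      simp only [G1, List.forall_mem_singleton, ev_sub, hX, hY]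
      exact hvu
    have h3 := h1 (by rw [hy', div_le_one hD]; nlinarith)
    rw [e, hy', hT] at h3
    refine fin Y1 _ _ _ hY ?_ ?_ (chk_sound _ c1 hx hz hg) (chk_sound _ c2 hx hz hg) <;>
      simp only [M1, R1, ev_add, ev_mul, ev_sc, ev_sub, ev_sq, ev_cb, ev_one, hX, hY] <;>
      push_cast
    · positivity
    · have e1 : (u + v) / (1 + u * v) * ((v - u) / (1 + u * v)) ^ 3 /
          ((1 + u ^ 2) * (1 + v ^ 2) / (1 + u * v) ^ 2) =
          (u + v) * (v - u) ^ 3 / ((1 + u * v) ^ 2 * ((1 + u ^ 2) * (1 + v ^ 2))) := by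
        field_simp
      rw [e1, div_le_iff₀ (by positivity)] at h3
      linarith
  · rw [div_le_iff₀ hD] at hy
    have hv4 : v < 4 := by nlinarith
    have hz : (4 - v) / 3 ∈ Set.Ioc (0 : ℝ) 1 := ⟨by linarith, by linarith⟩
    have hY : ev2 Y2 (1 - u) ((4 - v) / 3) = v := by rw [ev_Y2]; ring
    have hg : ∀ g ∈ G2, 0 < ev2 g (1 - u) ((4 - v) / 3) := by
      simp only [G2, List.forall_mem_cons, List.not_mem_nil, ev_sub, ev_sc, ev_mul, ev_add, ev_one,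
        hX, hY]
      push_cast
      exact ⟨by linarith, by linarith, fun _ h => h.elim⟩
    rw [e, hy', hT, ht] at h2
    have hw' : 0 ≤ 1 - u * v := sub_nonneg.2 hw
    have h4 : 0 ≤ (u + v) ^ 2 - (1 + u * v) ^ 2 := by
      have : (u + v) ^ 2 - (1 + u * v) ^ 2 = (1 - u) * (v - 1) * ((1 + u) * (1 + v)) := by ring
      rw [this]
      exact mul_nonneg (mul_nonneg hx.1.le (sub_nonneg.2 h)) (by positivity)
    refine fin Y2 _ _ _ hY ?_ ?_ (chk_sound _ c3 hx hz hg) (chk_sound _ c4 hx hz hg) <;>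
      simp only [M2, R2, ev_add, ev_mul, ev_sc, ev_sub, ev_sq, ev_cb, ev_one, hX, hY] <;>
      push_cast
    · positivity
    · have e1 : ((u + v) / (1 + u * v) - (1 - u * v) / (1 + u * v) * ((v - u) / (1 + u * v))) /
          ((1 + u ^ 2) * (1 + v ^ 2) / (1 + u * v) ^ 2) * ((v - u) / (1 + u * v)) ^ 3 / 2 +
          ((1 - u * v) / (1 + u * v)) ^ 3 / 2 +
          3 / 2 * (((u + v) / (1 + u * v)) ^ 2 - 1) * ((1 - u * v) / (1 + u * v)) =
          (2 * (u * (v - u) ^ 3) + (1 + u ^ 2) * (1 - u * v) *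
            ((1 - u * v) ^ 2 + 3 * ((u + v) ^ 2 - (1 + u * v) ^ 2))) /
            (2 * ((1 + u ^ 2) * (1 + u * v) ^ 3)) := by
        field_simp
        ring
      rw [e1, div_le_iff₀ (by positivity)] at h2
      linarith

end Cert

theorem cert {t y T m ξ : ℝ} (ht0 : 0 ≤ t) (ht1 : t ≤ 1) (hT : 0 ≤ T) (hy0 : 0 ≤ y) (hy2 : y ≤ 2)
    (he : T ^ 2 = t ^ 2 + y ^ 2 - 1) (hm : 0 ≤ m) (h1 : y ≤ 1 → y * T ^ 3 / (1 + T ^ 2) ≤ m)
    (h2 : (y - t * T) / (1 + T ^ 2) * T ^ 3 / 2 + t ^ 3 / 2 + 3 / 2 * (y ^ 2 - 1) * t ≤ m)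
    (hξ : ξ ^ 2 ≤ T ^ 2) : 0 ≤ Fc t y T (295 / 1000 * (1 + 2 / (2 + m))) ξ := by
  rcases hT.eq_or_lt with rfl | hT0
  · simp [Fc, St, Sy]
  have hTy : T ≤ y := by nlinarith
  have ht : 0 < 1 + t := by linarith
  have hw : (y - T) / (1 + t) * ((y + T) / (1 + t)) = (1 - t) / (1 + t) := by
    field_simp
    linarith
  have hD : 1 + (y - T) / (1 + t) * ((y + T) / (1 + t)) = 2 / (1 + t) := by
    rw [hw]
    field_simp
    ring
  have ey : y = ((y - T) / (1 + t) + (y + T) / (1 + t)) /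
      (1 + (y - T) / (1 + t) * ((y + T) / (1 + t))) := by
    rw [hD]
    field_simp
    ring
  obtain ⟨k1, k2⟩ := Cert.both (u := (y - T) / (1 + t)) (v := (y + T) / (1 + t)) (t := t) (T := T)
    (div_nonneg (sub_nonneg.2 hTy) ht.le) (div_lt_div_of_pos_right (by linarith) ht)
    (by rw [hw, div_le_one ht]; linarith) (ey ▸ hy2) hm
    (by rw [hD, hw]; field_simp; ring) ey (by rw [hD]; field_simp; ring) h1 h2
  obtain ⟨h3, h4⟩ := abs_le.1 ((sq_le_sq₀ (abs_nonneg ξ) hT).1 (by rwa [sq_abs]))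
  generalize 295 / 1000 * (1 + 2 / (2 + m)) = A at k1 k2 ⊢
  have e : Fc t y T A ξ * (2 * T) = (T + ξ) * Fc t y T A T + (T - ξ) * Fc t y T A (-T) := by
    simp only [Fc]
    ring
  refine nonneg_of_mul_nonneg_left ?_ (show 0 < 2 * T by positivity)
  rw [e]
  exact add_nonneg (mul_nonneg (by linarith) k1) (mul_nonneg (by linarith) k2)

end Vale.Agent.P237C
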