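import Vale.Agent.P237C.Defs

/-! Elementary properties of profiles.

PLAN.  anti: for 0 ≤ s ≤ t ≤ 1, s is a convex combination of t and -t.  ii: antitone nonnegative
functions and their powers are interval integrable (`AntitoneOn.intervalIntegrable`).
le_two: r t ≥ (1 - t) r 0, so ∫ r^4 ≥ (r 0)^4 / 5; 4 t^2 r^2 ≤ r^4 / 2 + 8 t^4 gives ∫ r^4 ≤ 16/5.
cont: `ConcaveOn.continuousOn_interior` (or the convex version for -r).
slope: right derivative p of the concave function at an interior point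
(`ConvexOn.hasDerivWithinAt_rightDeriv_of_mem_interior` for -r, `hasDerivWithinAt_Ioi_iff_Ici`); the
line r t + p (τ - t) lies above r (slopes are antitone: `ConvexOn.rightDeriv_le_slope`,
`ConvexOn.slope_le_leftDeriv`, `leftDeriv_le_rightDeriv`), hence above √(1 - τ^2); at
τ = -p / √(1 + p^2) this reads √(1 + p^2) ≤ r t - p t, and
((1 - t^2) p + t y)^2 ≤ t^2 + y^2 - 1 is the same as 1 + p^2 ≤ (y - p t)^2 times (1 - t^2).
riemann: telescoping over N equal steps gives φ 1 - φ 0 ≥ ∑ ψ((i+1)/N)/N ≥ ∫ ψ - (ψ 0 - ψ 1)/N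
(on each step ∫ ψ ≤ ψ(i/N)/N); or apply a one-sided monotonicity lemma. -/

namespace Vale.Agent.P237C

open Vale.Agent.P237B MeasureTheory Metric Set Real Filter Topology
open scoped Pointwise RealInnerProductSpace

variable {r : ℝ → ℝ}

theorem Prof.nonneg (h : Prof r) {t : ℝ} (ht : t ∈ Icc (-1 : ℝ) 1) : 0 ≤ r t :=
  (sqrt_nonneg _).trans (h.ge t ht)

theorem Prof.e_nonneg (h : Prof r) {t : ℝ} (ht : t ∈ Icc (-1 : ℝ) 1) : 0 ≤ t ^ 2 + r t ^ 2 - 1 := by
  have h1 : 0 ≤ 1 - t ^ 2 := by nlinarith [ht.1, ht.2]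
  have h2 := pow_le_pow_left₀ (sqrt_nonneg _) (h.ge t ht) 2
  rw [sq_sqrt h1] at h2
  linarith

theorem Prof.anti (h : Prof r) : AntitoneOn r (Icc 0 1) := by
  intro s hs t ht hst
  rcases eq_or_lt_of_le ht.1 with h0 | h0
  · rw [show s = t by linarith [hs.1]]
  · have h1 := h.conc.2 (show t ∈ Icc (-1 : ℝ) 1 from ⟨by linarith, ht.2⟩)
      (show -t ∈ Icc (-1 : ℝ) 1 from ⟨by linarith [ht.2], by linarith⟩)
      (show 0 ≤ (t + s) / (2 * t) from div_nonneg (by linarith [hs.1]) (by linarith))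
      (show 0 ≤ (t - s) / (2 * t) from div_nonneg (by linarith) (by linarith))
      (by field_simp; ring)
    simp only [smul_eq_mul, h.even] at h1
    rw [show (t + s) / (2 * t) * t + (t - s) / (2 * t) * -t = s by field_simp; ring, ← add_mul,
      show (t + s) / (2 * t) + (t - s) / (2 * t) = 1 by field_simp; ring, one_mul] at h1
    exact h1

theorem Prof.ii (h : Prof r) (j k : ℕ) {a b : ℝ} (ha : a ∈ Icc (0 : ℝ) 1) (hb : b ∈ Icc (0 : ℝ) 1) :
    IntervalIntegrable (fun t => t ^ j * r t ^ k) volume a b := by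
  have h1 : uIcc a b ⊆ Icc 0 1 := uIcc_subset_Icc ha hb
  have h2 : AntitoneOn (fun t => r t ^ k) (uIcc a b) := fun s hs t ht hst =>
    pow_le_pow_left₀ (h.nonneg ⟨by linarith [(h1 ht).1], (h1 ht).2⟩) (h.anti (h1 hs) (h1 ht) hst) k
  exact h2.intervalIntegrable.continuousOn_mul (by fun_prop)

theorem Prof.le_two (h : Prof r) {t : ℝ} (ht : t ∈ Icc (0 : ℝ) 1) : r t ≤ 2 := by
  have z : (0 : ℝ) ∈ Icc (0 : ℝ) 1 := ⟨le_rfl, zero_le_one⟩
  have o : (1 : ℝ) ∈ Icc (0 : ℝ) 1 := ⟨zero_le_one, le_rfl⟩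
  have i4 : IntervalIntegrable (fun t => r t ^ 4) volume 0 1 := by simpa using h.ii 0 4 z o
  have h0 : 0 ≤ r 0 := h.nonneg ⟨by norm_num, by norm_num⟩
  have h1 : ∫ t in (0 : ℝ)..1, (1 - t) ^ 4 * r 0 ^ 4 ≤ ∫ t in (0 : ℝ)..1, r t ^ 4 := by
    refine intervalIntegral.integral_mono_on zero_le_one (Continuous.intervalIntegrable
      (by fun_prop) _ _) i4 fun s hs => ?_
    have h2 := h.conc.2 (show (0 : ℝ) ∈ Icc (-1 : ℝ) 1 from ⟨by norm_num, by norm_num⟩)
      (show (1 : ℝ) ∈ Icc (-1 : ℝ) 1 from ⟨by norm_num, le_rfl⟩)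
      (show 0 ≤ 1 - s by linarith [hs.2]) hs.1 (by ring)
    have h3 := mul_nonneg hs.1 (h.nonneg (t := 1) ⟨by norm_num, le_rfl⟩)
    simp only [smul_eq_mul, mul_zero, mul_one, zero_add] at h2
    rw [← mul_pow]
    exact pow_le_pow_left₀ (mul_nonneg (by linarith [hs.2]) h0) (by linarith) 4
  have h2 : ∫ t in (0 : ℝ)..1, t ^ 2 * r t ^ 2 ≤
      ∫ t in (0 : ℝ)..1, (1 / 8 * r t ^ 4 + 2 * t ^ 4) :=
    intervalIntegral.integral_mono_on zero_le_one (h.ii 2 2 z o) ((i4.const_mul _).add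
      (Continuous.intervalIntegrable (by fun_prop) _ _)) fun s _ => by
        nlinarith [sq_nonneg (r s ^ 2 - 4 * s ^ 2)]
  rw [intervalIntegral.integral_add (i4.const_mul _) (Continuous.intervalIntegrable (by fun_prop)
    _ _), intervalIntegral.integral_const_mul, intervalIntegral.integral_const_mul,
    integral_pow] at h2
  rw [intervalIntegral.integral_mul_const, intervalIntegral.integral_comp_sub_left
    (fun t => t ^ 4), integral_pow] at h1
  have h3 := h.mom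
  norm_num at h1 h2
  exact (h.anti z ht ht.1).trans (le_of_pow_le_pow_left₀ (n := 4) (by norm_num) (by norm_num)
    (by linarith))

theorem Prof.cont (h : Prof r) : ContinuousOn r (Ioo (-1) 1) := by
  simpa using h.conc.continuousOn_interior

theorem Prof.slope (h : Prof r) {t : ℝ} (ht : t ∈ Ioo (-1 : ℝ) 1) :
    ∃ p : ℝ, HasDerivWithinAt r p (Ici t) t ∧
      ((1 - t ^ 2) * p + t * r t) ^ 2 ≤ t ^ 2 + r t ^ 2 - 1 := by
  have hc := h.conc.neg
  have hi : t ∈ interior (Icc (-1 : ℝ) 1) := by simpa using ht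
  have hd := (hc.hasDerivWithinAt_rightDeriv_of_mem_interior hi).neg
  set q := derivWithin (-r) (Ioi t) t with hq
  refine ⟨-q, by simpa using hasDerivWithinAt_Ioi_iff_Ici.1 hd, ?_⟩
  have key : ∀ τ ∈ Icc (-1 : ℝ) 1, r τ ≤ r t - q * (τ - t) := fun τ hτ => by
    rcases lt_trichotomy t τ with h1 | h1 | h1
    · have h2 := hc.rightDeriv_le_slope_of_mem_interior hi hτ h1
      rw [slope_def_field, le_div_iff₀ (by linarith)] at h2
      simp only [Pi.neg_apply] at h2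
      linarith
    · simp [h1]
    · have h2 := (hc.slope_le_leftDeriv_of_mem_interior hτ hi h1).trans
        (hc.leftDeriv_le_rightDeriv_of_mem_interior hi)
      rw [slope_def_field, div_le_iff₀ (by linarith)] at h2
      simp only [Pi.neg_apply] at h2
      linarith
  obtain ⟨c, hc0, hc2⟩ : ∃ c : ℝ, 0 < c ∧ c ^ 2 = 1 + q ^ 2 :=
    ⟨√(1 + q ^ 2), sqrt_pos.2 (by positivity), sq_sqrt (by positivity)⟩
  have h1 : |q| ≤ c := abs_le_of_sq_le_sq (by linarith) hc0.le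
  have h2 : q / c ∈ Icc (-1 : ℝ) 1 := by
    rw [mem_Icc, le_div_iff₀ hc0, div_le_iff₀ hc0]
    constructor <;> linarith [abs_le.1 h1]
  have h3 : 1 / c ≤ √(1 - (q / c) ^ 2) := le_sqrt_of_sq_le (le_of_eq (by
    field_simp; linarith))
  have h4 := (h3.trans (h.ge _ h2)).trans (key _ h2)
  have h5 : c ≤ r t + q * t := by
    have : c = 1 / c + q * (q / c) := by field_simp; linarith
    linarith
  have h6 := pow_le_pow_left₀ hc0.le h5 2
  have h7 : 0 ≤ 1 - t ^ 2 := by nlinarith [ht.1, ht.2]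
  nlinarith [mul_nonneg h7 (sub_nonneg.2 h6)]

theorem riemann {φ ψ : ℝ → ℝ} (hψ : AntitoneOn ψ (Icc 0 1))
    (h : ∀ a b : ℝ, 0 ≤ a → a ≤ b → b ≤ 1 → φ a + (b - a) * ψ b ≤ φ b) :
    φ 0 + ∫ t in (0 : ℝ)..1, ψ t ≤ φ 1 := by
  have ii : ∀ a ∈ Icc (0 : ℝ) 1, ∀ b ∈ Icc (0 : ℝ) 1, IntervalIntegrable ψ volume a b :=
    fun a ha b hb => (hψ.mono (uIcc_subset_Icc ha hb)).intervalIntegrable
  have key : ∀ (d : ℝ) (k : ℕ), 0 ≤ d → k * d ≤ 1 →
      φ 0 + ∫ t in (0 : ℝ)..k * d, ψ t ≤ φ (k * d) + d * (ψ 0 - ψ (k * d)) := by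
    intro d k hd
    induction k with
    | zero => simp
    | succ k ih =>
      intro hk
      push_cast at hk ⊢
      have h0 : 0 ≤ k * d := by positivity
      have h1 : k * d ≤ (k + 1) * d := by linarith
      have m0 : k * d ∈ Icc (0 : ℝ) 1 := ⟨h0, h1.trans hk⟩
      have m1 : (k + 1) * d ∈ Icc (0 : ℝ) 1 := ⟨h0.trans h1, hk⟩
      have h2 := intervalIntegral.integral_mono_on h1 (ii _ m0 _ m1)
        (intervalIntegrable_const (c := ψ (k * d))) fun s hs =>
          hψ m0 ⟨h0.trans hs.1, hs.2.trans hk⟩ hs.1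
      have h3 := h _ _ h0 h1 hk
      rw [← intervalIntegral.integral_add_adjacent_intervals (ii _ ⟨le_rfl, zero_le_one⟩ _ m0)
        (ii _ m0 _ m1)]
      rw [intervalIntegral.integral_const, smul_eq_mul] at h2
      have h4 := ih m0.2
      nlinarith
  have lim : Tendsto (fun n : ℕ => φ 1 + 1 / ((n : ℝ) + 1) * (ψ 0 - ψ 1)) atTop
      (𝓝 (φ 1 + 0 * (ψ 0 - ψ 1))) :=
    (tendsto_one_div_add_atTop_nhds_zero_nat.mul_const _).const_add _
  rw [zero_mul, add_zero] at lim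
  refine ge_of_tendsto' lim fun n => ?_
  have e : ((n + 1 : ℕ) : ℝ) * (1 / ((n : ℝ) + 1)) = 1 := by push_cast; field_simp
  have := key (1 / ((n : ℝ) + 1)) (n + 1) (by positivity) e.le
  rwa [e] at this

end Vale.Agent.P237C
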