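import Vale.Agent.P237B.Cov
import Vale.Agent.P237B.Mink
import Vale.Agent.P237B.Eq

/-! Dimension three of the projection-volume inequality: definitions and small facts. -/

namespace Vale.Agent.P237C

open Vale.Agent.P237B MeasureTheory Metric Set Real
open scoped Pointwise RealInnerProductSpace

variable {n : ℕ}

/-- Symmetric about the origin. -/
def Sym (K : Set (E n)) : Prop := ∀ x ∈ K, -x ∈ K

/-- The normalised projection volume. -/
noncomputable def R (K : Set (E n)) : ℝ := vol (projBody K) / vol K ^ (n - 1)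

/-- The point with horizontal part `y` and height `t`. -/
def pt (y : E 2) (t : ℝ) : E 3 := !₂[y 0, y 1, t]

/-- The horizontal part of a point. -/
def hor (x : E 3) : E 2 := !₂[x 0, x 1]

/-- Rotation of the plane by a right angle. -/
def rot (y : E 2) : E 2 := !₂[-y 1, y 0]

/-- Horizontal slice at height `t`. -/
def slice (K : Set (E 3)) (t : ℝ) : Set (E 2) := {y | pt y t ∈ K}

/-- Radius of the disc with the area of the slice. -/
noncomputable def rad (K : Set (E 3)) (t : ℝ) : ℝ := √(vol (slice K t) / π)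

/-- The normal position of a symmetric convex body. -/
structure InPos3 (K : Set (E 3)) : Prop where
  body : IsBody K
  sym : Sym K
  ball : closedBall 0 1 ⊆ K
  slab : ∀ x ∈ K, x 2 ≤ 1
  big : K ⊆ closedBall 0 32
  iso : ∫ x in K, (x 0 ^ 2 + x 1 ^ 2) ≤ 2 * ∫ x in K, x 2 ^ 2

/-- The profile of a body in normal position. -/
structure Prof (r : ℝ → ℝ) : Prop where
  conc : ConcaveOn ℝ (Icc (-1) 1) r
  even : ∀ t, r (-t) = r t
  ge : ∀ t ∈ Icc (-1 : ℝ) 1, √(1 - t ^ 2) ≤ r t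
  mom : ∫ t in (0 : ℝ)..1, r t ^ 4 ≤ 4 * ∫ t in (0 : ℝ)..1, t ^ 2 * r t ^ 2

theorem mem_of_support {A : Set (E n)} (hA : IsClosed A) (hc : Convex ℝ A) {x : E n}
    (h : ∀ v : E n, ∀ ε : ℝ, 0 < ε → ∃ a ∈ A, ⟪x, v⟫ ≤ ⟪a, v⟫ + ε) : x ∈ A := by
  by_contra hx
  obtain ⟨f, s, h1, h2⟩ := geometric_hahn_banach_closed_point hc hA hx
  obtain ⟨a, ha, h3⟩ := h ((InnerProductSpace.toDual ℝ (E n)).symm f) (f x - s) (by linarith)
  rw [real_inner_comm, real_inner_comm _ a, InnerProductSpace.toDual_symm_apply,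
    InnerProductSpace.toDual_symm_apply] at h3
  linarith [h1 a ha]

theorem body_proj [NeZero n] {K : Set (E n)} (hK : IsBody K) : IsBody (projBody K) := by
  obtain ⟨G, hG, e⟩ := exists_nrm hK
  rw [e]
  exact hG.isBody

theorem sym_proj [NeZero n] {K : Set (E n)} (hK : IsBody K) : Sym (projBody K) := by
  obtain ⟨G, hG, e⟩ := exists_nrm hK
  rw [e]
  intro x hx
  change G (-x) ≤ 1
  rwa [hG.neg]

theorem Sym.lin {K : Set (E n)} (h : Sym K) (T : E n ≃ₗ[ℝ] E n) : Sym (T '' K) := by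
  rintro _ ⟨x, hx, rfl⟩
  exact ⟨-x, h x hx, map_neg T x⟩

theorem projBody_mono {K L : Set (E n)} (h : K ⊆ L) (hL : IsCompact L) :
    projBody K ⊆ projBody L := fun _ hx =>
  mem_projBody.2 fun a => (mem_projBody.1 hx a).trans (hh_mono h hL a)

theorem R_lin [NeZero n] {K : Set (E n)} (hK : IsBody K) (T : E n ≃ₗ[ℝ] E n) :
    R (T '' K) = R K := by
  have hd : 0 < |LinearMap.det (T : E n →ₗ[ℝ] E n)| := abs_pos.2 (Cov.det_ne T)
  have hv : vol (T '' K) = _ * vol K := vol_lin K (T : E n →ₗ[ℝ] E n)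
  rw [R, R, vol_projBody_lin hK, hv, mul_pow, mul_div_mul_left _ _ (pow_pos hd _).ne']

theorem projBody_lin [NeZero n] {K : Set (E n)} (hK : IsBody K) (T : E n ≃ₗ[ℝ] E n) :
    ∃ S : E n ≃ₗ[ℝ] E n, projBody (T '' K) = S '' projBody K := by
  have hd : 0 < |LinearMap.det (T : E n →ₗ[ℝ] E n)| := abs_pos.2 (Cov.det_ne T)
  have h1 : LinearMap.det (|LinearMap.det (T : E n →ₗ[ℝ] E n)|⁻¹ •
      LinearMap.adjoint (T : E n →ₗ[ℝ] E n)) ≠ 0 := by
    rw [LinearMap.det_smul, Cov.det_adjoint]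
    exact mul_ne_zero (pow_ne_zero _ (inv_ne_zero hd.ne')) (Cov.det_ne T)
  refine ⟨(LinearMap.equivOfDetNeZero _ h1).symm, ?_⟩
  ext x
  rw [mem_projBody_lin hK, LinearEquiv.image_eq_preimage_symm, LinearEquiv.symm_symm]
  rfl

theorem R_pos [NeZero n] {K : Set (E n)} (hK : IsBody K) : 0 < R K :=
  div_pos (body_proj hK).vol_pos (pow_pos hK.vol_pos _)

theorem kappa_two : kappa 2 = π := by
  simp [kappa, vol, EuclideanSpace.volume_closedBall_fin_two, pi_pos.le]

theorem kappa_three : kappa 3 = 4 * π / 3 := by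
  rw [kappa, vol, EuclideanSpace.volume_closedBall_fin_three, ENNReal.toReal_mul,
    ENNReal.toReal_ofReal (by positivity)]
  simp
  ring

@[simp] theorem pt_zero (y : E 2) (t : ℝ) : pt y t 0 = y 0 := rfl
@[simp] theorem pt_one (y : E 2) (t : ℝ) : pt y t 1 = y 1 := rfl
@[simp] theorem pt_two (y : E 2) (t : ℝ) : pt y t 2 = t := rfl
@[simp] theorem hor_zero (x : E 3) : hor x 0 = x 0 := rfl
@[simp] theorem hor_one (x : E 3) : hor x 1 = x 1 := rfl
@[simp] theorem rot_zero (y : E 2) : rot y 0 = -y 1 := rfl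
@[simp] theorem rot_one (y : E 2) : rot y 1 = y 0 := rfl

theorem ext3 {x x' : E 3} (h0 : x 0 = x' 0) (h1 : x 1 = x' 1) (h2 : x 2 = x' 2) : x = x' := by
  ext i
  fin_cases i
  exacts [h0, h1, h2]

theorem ext2 {x x' : E 2} (h0 : x 0 = x' 0) (h1 : x 1 = x' 1) : x = x' := by
  ext i
  fin_cases i
  exacts [h0, h1]

theorem pt_hor (x : E 3) : pt (hor x) (x 2) = x := ext3 rfl rfl rfl

theorem hor_pt (y : E 2) (t : ℝ) : hor (pt y t) = y := ext2 rfl rfl

theorem pt_comb (a b : ℝ) (y y' : E 2) (t t' : ℝ) :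
    pt (a • y + b • y') (a * t + b * t') = a • pt y t + b • pt y' t' := ext3 rfl rfl rfl

theorem pt_add (y y' : E 2) (t t' : ℝ) : pt (y + y') (t + t') = pt y t + pt y' t' :=
  ext3 rfl rfl rfl

theorem pt_smul (a : ℝ) (y : E 2) (t : ℝ) : pt (a • y) (a * t) = a • pt y t := ext3 rfl rfl rfl

theorem pt_neg (y : E 2) (t : ℝ) : pt (-y) (-t) = -pt y t := ext3 rfl rfl rfl

theorem inner3 (x x' : E 3) : ⟪x, x'⟫ = x 0 * x' 0 + x 1 * x' 1 + x 2 * x' 2 := by
  simp only [PiLp.inner_apply, RCLike.inner_apply, conj_trivial, Fin.sum_univ_three]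
  ring

theorem inner2 (x x' : E 2) : ⟪x, x'⟫ = x 0 * x' 0 + x 1 * x' 1 := by
  simp only [PiLp.inner_apply, RCLike.inner_apply, conj_trivial, Fin.sum_univ_two]
  ring

theorem norm3 (x : E 3) : ‖x‖ ^ 2 = x 0 ^ 2 + x 1 ^ 2 + x 2 ^ 2 := by
  rw [← real_inner_self_eq_norm_sq, inner3]
  ring

theorem norm2 (x : E 2) : ‖x‖ ^ 2 = x 0 ^ 2 + x 1 ^ 2 := by
  rw [← real_inner_self_eq_norm_sq, inner2]
  ring

theorem norm_pt (y : E 2) (t : ℝ) : ‖pt y t‖ ^ 2 = ‖y‖ ^ 2 + t ^ 2 := by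
  rw [norm3, norm2]
  rfl

theorem continuous_pt : Continuous fun z : E 2 × ℝ => pt z.1 z.2 := by
  unfold pt
  fun_prop

theorem continuous_hor : Continuous hor := by
  unfold hor
  fun_prop

theorem slice_compact {K : Set (E 3)} (hK : IsCompact K) (t : ℝ) : IsCompact (slice K t) := by
  refine (hK.image continuous_hor).of_isClosed_subset (hK.isClosed.preimage
    (continuous_pt.comp (continuous_id.prodMk continuous_const))) fun y hy => ⟨_, hy, hor_pt y t⟩

theorem slice_comb {K : Set (E 3)} (hK : Convex ℝ K) {a b s t : ℝ} (ha : 0 ≤ a) (hb : 0 ≤ b)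
    (hab : a + b = 1) {y y' : E 2} (hy : y ∈ slice K s) (hy' : y' ∈ slice K t) :
    a • y + b • y' ∈ slice K (a * s + b * t) := by
  change pt _ _ ∈ K
  rw [pt_comb]
  exact hK hy hy' ha hb hab

theorem slice_convex {K : Set (E 3)} (hK : Convex ℝ K) (t : ℝ) : Convex ℝ (slice K t) := by
  intro y hy y' hy' a b ha hb hab
  have := slice_comb hK ha hb hab hy hy'
  rwa [← add_mul, hab, one_mul] at this

theorem slice_neg {K : Set (E 3)} (hK : Sym K) {t : ℝ} {y : E 2} (hy : y ∈ slice K t) :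
    -y ∈ slice K (-t) := by
  change pt _ _ ∈ K
  rw [pt_neg]
  exact hK _ hy

theorem InPos3.disc {K : Set (E 3)} (h : InPos3 K) {t : ℝ} (ht : t ∈ Icc (-1 : ℝ) 1) :
    closedBall 0 √(1 - t ^ 2) ⊆ slice K t := fun y hy => h.ball <| by
  have h1 : 0 ≤ 1 - t ^ 2 := by nlinarith [ht.1, ht.2]
  have h2 := pow_le_pow_left₀ (norm_nonneg _) (mem_closedBall_zero_iff.1 hy) 2
  rw [sq_sqrt h1] at h2
  rw [mem_closedBall_zero_iff, ← sq_le_one_iff₀ (norm_nonneg _), norm_pt]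
  linarith

theorem InPos3.slice_ne {K : Set (E 3)} (h : InPos3 K) {t : ℝ} (ht : t ∈ Icc (-1 : ℝ) 1) :
    (slice K t).Nonempty := ⟨0, h.disc ht (mem_closedBall_self (sqrt_nonneg _))⟩

theorem vol_slice (K : Set (E 3)) (t : ℝ) : vol (slice K t) = π * rad K t ^ 2 := by
  rw [rad, sq_sqrt (div_nonneg (vol_nonneg _) pi_pos.le)]
  field_simp

end Vale.Agent.P237C
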