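import Vale.Agent.P237C.Defs

/-! Fubini along horizontal slices of three-dimensional space.

PLAN.  mp: compose `PiLp.volume_preserving_toLp` / `PiLp.volume_preserving_ofLp` with
`volume_preserving_piFinSuccAbove (fun _ : Fin 3 => ℝ) 2` (symm), or any other route.
The map is continuous, so preimages of measurable sets are measurable; `Measure.prod_apply`,
`integral_prod`, `Integrable.integral_prod_left`; a slice of an indicator is the indicator of the
slice.  vol A = ∫ x in A, 1.  A continuous function is integrable on a compact set. -/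

namespace Vale.Agent.P237C

open Vale.Agent.P237B MeasureTheory Metric Set Real Filter Topology
open scoped Pointwise RealInnerProductSpace

theorem pt_mp : MeasurePreserving (fun z : ℝ × E 2 => pt z.2 z.1) volume volume := by
  have h1 := ((volume_preserving_piFinSuccAbove (fun _ : Fin 3 => ℝ) 2).symm _)
  have h2 : MeasurePreserving (Prod.map (id : ℝ → ℝ) (@WithLp.ofLp 2 (Fin 2 → ℝ)))
      (volume : Measure (ℝ × E 2)) (volume : Measure (ℝ × (Fin 2 → ℝ))) :=
    (MeasurePreserving.id volume).prod (PiLp.volume_preserving_ofLp (Fin 2))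
  have h3 := (PiLp.volume_preserving_toLp (Fin 3)).comp (h1.comp h2)
  have e : (fun z : ℝ × E 2 => pt z.2 z.1) = WithLp.toLp 2 ∘
      (MeasurableEquiv.piFinSuccAbove (fun _ : Fin 3 => ℝ) 2).symm ∘
        Prod.map (id : ℝ → ℝ) (@WithLp.ofLp 2 (Fin 2 → ℝ)) := by
    funext z
    refine ext3 ?_ ?_ ?_ <;> rfl
  rw [e]
  exact h3

theorem fubini {K : Set (E 3)} (hK : IsCompact K) {f : E 3 → ℝ} (hf : Continuous f) :
    Integrable (fun t => ∫ y in slice K t, f (pt y t)) ∧
      ∫ x in K, f x = ∫ t, ∫ y in slice K t, f (pt y t) := by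
  have hm : MeasurableSet K := hK.isClosed.measurableSet
  have hi : Integrable (K.indicator f) :=
    (integrable_indicator_iff hm).2 (hf.continuousOn.integrableOn_compact hK)
  have hi2 : Integrable (fun z : ℝ × E 2 => K.indicator f (pt z.2 z.1))
      ((volume : Measure ℝ).prod volume) := pt_mp.integrable_comp_of_integrable hi
  have key : ∀ t, ∫ y in slice K t, f (pt y t) = ∫ y, K.indicator f (pt y t) := fun t => by
    rw [← integral_indicator (slice_compact hK t).isClosed.measurableSet]
    rfl
  simp only [key]
  refine ⟨hi2.integral_prod_left, ?_⟩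
  rw [← integral_indicator hm, ← integral_prod _ hi2, ← pt_mp.map_eq,
    integral_map pt_mp.measurable.aemeasurable (by rw [pt_mp.map_eq]; exact hi.1)]
  rfl

theorem fubini_vol {K : Set (E 3)} (hK : IsCompact K) :
    Integrable (fun t => vol (slice K t)) ∧ vol K = ∫ t, vol (slice K t) := by
  have := fubini hK (f := fun _ => (1 : ℝ)) continuous_const
  simpa [vol, Measure.real] using this

/-- An even integrable function vanishing outside the interval from -1 to 1. -/
theorem integral_even {g : ℝ → ℝ} (hg : Integrable g) (he : ∀ t, g (-t) = g t)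
    (h0 : ∀ t, 1 < t → g t = 0) : ∫ t, g t = 2 * ∫ t in (0 : ℝ)..1, g t := by
  have h1 := integral_add_compl (s := Ioi (0 : ℝ)) measurableSet_Ioi hg
  have h2 : ∫ t in Iic (0 : ℝ), g t = ∫ t in Ioi (0 : ℝ), g t := by
    have := integral_comp_neg_Iic (0 : ℝ) g
    simpa only [he, neg_zero] using this
  have h3 : ∫ t in Ioi (0 : ℝ), g t = ∫ t in (0 : ℝ)..1, g t := by
    rw [intervalIntegral.integral_of_le zero_le_one]
    refine setIntegral_eq_of_subset_of_forall_sdiff_eq_zero measurableSet_Ioi Ioc_subset_Ioi_self
      fun x hx => h0 x ?_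
    by_contra h
    exact hx.2 ⟨hx.1, not_lt.1 h⟩
  rw [compl_Ioi, h2, h3] at h1
  linarith

end Vale.Agent.P237C
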