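import Vale.Agent.P237C.Defs
import Vale.Agent.P237B.EqG

/-! Equality in the Brunn-Minkowski inequality for two symmetric bodies: they are homothetic.

PLAN (copy P237B/EqA `eq_cut`, `EqA.not_lt` with M in place of the ball).  Call (x, y) ∈ K × M a
good pair if x' ∈ K, y' ∈ M, x' + y' = x + y force x' = x, y' = y.
* cut: for a good pair and levels s, t cutting the same proportion θ of K and M,
  (s ≤ ⟪x,w⟫ ∧ t ≤ ⟪y,w⟫) ∨ (⟪x,w⟫ ≤ s ∧ ⟪y,w⟫ ≤ t).
* sign: for good pairs (x,y), (x',y'), ⟪x,w⟫ < ⟪x',w⟫ → ⟪y,w⟫ ≤ ⟪y',w⟫ (take s strictly between,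
  `eq_slab`, `eq_level`).
* algebra: if a ≠ 0 and ⟪a,w⟫ < 0 → ⟪b,w⟫ ≤ 0 for all w, then b = τ • a (write b = τ a + c with
  c ⊥ a and test w = c - ε a).
* existence: for every ν there is a good pair with x, y maximising ⟪·,ν⟫ on K, M: take an extreme
  point z = x + y of the face of K + M in direction ν (`IsCompact.extremePoints_nonempty`), or the
  point of that face of maximal norm; z is the midpoint of x + y' and x' + y, both in the face.
* (-x,-y) is good too, so y = τ x (x ≠ 0 since ⟪x,ν⟫ > 0 for ν ≠ 0: a symmetric body contains a ball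
  around 0).  For good pairs with x, x' linearly independent, y - y' ∥ x - x' gives τ = τ'.  Since
  2 ≤ n every good x has a good x₁ independent of it (ν ⊥ x), so τ is the same for all pairs.
* `mem_of_support` gives τ • K ⊆ M (so τ α ≤ β by `vol_smul`; τ > 0) and M ⊆ τ • K ⊆ (β/α) • K. -/

namespace Vale.Agent.P237C

open Vale.Agent.P237B MeasureTheory Metric Set Real Filter Topology
open scoped Pointwise RealInnerProductSpace

variable {n : ℕ} [NeZero n] {K M : Set (E n)}

theorem homothetic (hn : 2 ≤ n) (hK : IsBody K) (hK' : Sym K) (hM : IsBody M) (hM' : Sym M)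
    {α β : ℝ} (hα : 0 < α) (hβ : 0 < β) (hα' : α ^ n = vol K) (hβ' : β ^ n = vol M)
    (h : vol (K + M) ≤ (α + β) ^ n) : M ⊆ (β / α) • K := by
  obtain ⟨c, hc⟩ := homothetic_of_bm_eq hn hM hK hβ hα hβ' hα' (by rwa [add_comm M, add_comm β])
  intro x hx
  obtain ⟨y, hy, e⟩ := hc.subset hx
  obtain ⟨y', hy', e'⟩ := hc.subset (hM' x hx)
  refine ⟨(1 / 2 : ℝ) • y + (1 / 2 : ℝ) • -y', hK.2.1 hy (hK' y' hy') (by norm_num) (by norm_num)
    (by norm_num), ?_⟩
  linear_combination (norm := module) (1 / 2 : ℝ) • e - (1 / 2 : ℝ) • e'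

end Vale.Agent.P237C
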