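import Vale.Agent.P237C.IsoA

/-! Normal position.

PLAN.  Start from `exists_iso`, K₁ = T '' K.  touch: 0 is interior (midpoint of an interior point and
its negative); p = point of minimal norm ρ > 0 on the compact frontier (or use `isNrm_gauge` and the
maximum of the gauge on the unit sphere); closedBall 0 ρ ⊆ K, and `geometric_hahn_banach_open_point`
for interior K and p gives a unit w with ⟪x,w⟫ ≤ ⟪p,w⟫ ≤ ρ on K.  A linear isometry U with
U w = single 2 1 (`Submodule.reflection_sub`), S = ρ⁻¹ • U.  The isotropy identity survives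
(`setIntegral_lin`, ⟪U x, v⟫ = ⟪x, U.symm v⟫).  iso: take v = single i 1.
big: c ≤ vol K from v = single 2 1 (|x 2| ≤ 1 on K).  If x₀ ∈ K, H = ‖x₀‖ > 32, let x₁ ∈ K have
maximal norm H, v = x₁ / H; the set x₁/2 + K/4 ⊆ K (convexity with 0) has volume vol K / 64 and
⟪x,v⟫ ≥ H/2 - H/4 on it, so c ≥ H^2 vol K / 1024, H ≤ 32. -/

namespace Vale.Agent.P237C

open Vale.Agent.P237B MeasureTheory Metric Set Real Filter Topology
open scoped Pointwise RealInnerProductSpace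

theorem touch {n : ℕ} [NeZero n] {K : Set (E n)} (hK : IsBody K) (hs : Sym K) :
    ∃ (ρ : ℝ) (w : E n), 0 < ρ ∧ ‖w‖ = 1 ∧ closedBall 0 ρ ⊆ K ∧ ∀ x ∈ K, ⟪x, w⟫ ≤ ρ := by
  obtain ⟨a, ha⟩ := hK.2.2
  have h0 : (0 : E n) ∈ interior K := by
    have := hK.2.1.combo_interior_self_mem_interior ha (hs a (interior_subset ha))
      (a := 1 / 2) (b := 1 / 2) (by norm_num) (by norm_num) (by norm_num)
    simpa using this
  have hne : ((interior K)ᶜ).Nonempty := by
    rw [nonempty_compl]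
    intro h
    have h1 : K = univ := eq_univ_of_univ_subset (h ▸ interior_subset)
    exact NormedSpace.unbounded_univ ℝ (E n) (h1 ▸ hK.1.isBounded)
  obtain ⟨p, hp, hd⟩ := isOpen_interior.isClosed_compl.exists_infDist_eq_dist hne (0 : E n)
  rw [dist_comm, dist_zero_right] at hd
  have hp0 : 0 < ‖p‖ := norm_pos_iff.2 fun h => hp (h ▸ h0)
  obtain ⟨f, hf⟩ := geometric_hahn_banach_open_point hK.2.1.interior isOpen_interior hp
  have hf0 : 0 < f p := by simpa using hf 0 h0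
  have hfn : 0 < ‖f‖ := norm_pos_iff.2 fun h => by simp [h] at hf0
  refine ⟨‖p‖, ‖f‖⁻¹ • (InnerProductSpace.toDual ℝ (E n)).symm f, hp0, ?_, ?_, ?_⟩
  · rw [norm_smul, LinearIsometryEquiv.norm_map, norm_inv, norm_norm, inv_mul_cancel₀ hfn.ne']
  · rw [← closure_ball _ hp0.ne', hK.1.isClosed.closure_subset_iff, ← hd]
    refine ball_infDist_subset_compl.trans ?_
    rw [compl_compl]
    exact interior_subset
  · intro x hx
    have h1 : f x ≤ f p := by
      have h2 : x ∈ closure (interior K) := by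
        rw [hK.2.1.closure_interior_eq_closure_of_nonempty_interior hK.2.2]
        exact subset_closure hx
      exact closure_minimal (fun y hy => (hf y hy).le)
        (isClosed_le f.continuous continuous_const) h2
    have h3 : f p ≤ ‖f‖ * ‖p‖ := (le_abs_self _).trans (f.le_opNorm p)
    rw [real_inner_smul_right, real_inner_comm, InnerProductSpace.toDual_symm_apply,
      inv_mul_le_iff₀ hfn]
    linarith

theorem iso_single (x : E 3) (i : Fin 3) : ⟪x, EuclideanSpace.single i (1 : ℝ)⟫ = x i := by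
  rw [EuclideanSpace.inner_single_right]
  simp

theorem iso_coord {L : Set (E 3)} {c : ℝ} (h : ∀ v : E 3, ∫ x in L, ⟪x, v⟫ ^ 2 = c * ‖v‖ ^ 2)
    (i : Fin 3) : ∫ x in L, x i ^ 2 = c := by
  have := h (EuclideanSpace.single i (1 : ℝ))
  simpa only [iso_single, EuclideanSpace.norm_single, norm_one, one_pow, mul_one] using this

theorem iso_big {L : Set (E 3)} (hL : IsBody L) (hs : Sym L) (h2 : ∀ x ∈ L, x 2 ≤ 1) {c : ℝ}
    (h : ∀ v : E 3, ∫ x in L, ⟪x, v⟫ ^ 2 = c * ‖v‖ ^ 2) : L ⊆ closedBall 0 32 := by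
  have hcv : Convex ℝ L := hL.2.1
  have hv := hL.vol_pos
  have hc : c ≤ vol L := by
    rw [← iso_coord h 2]
    have h1 : ‖∫ x in L, x 2 ^ 2‖ ≤ 1 * volume.real L := by
      refine norm_setIntegral_le_of_norm_le_const hL.1.measure_lt_top fun x hx => ?_
      have h3 := h2 x hx
      have h4 : -x 2 ≤ 1 := h2 _ (hs x hx)
      rw [Real.norm_of_nonneg (sq_nonneg _)]
      nlinarith
    rw [one_mul] at h1
    exact (le_abs_self _).trans h1
  obtain ⟨a, ha⟩ := hL.2.2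
  obtain ⟨p, hp, hmax⟩ := hL.1.exists_isMaxOn ⟨a, interior_subset ha⟩ continuous_norm.continuousOn
  have h0 : (0 : E 3) ∈ L := by
    have := hcv hp (hs p hp) (a := 1 / 2) (b := 1 / 2) (by norm_num) (by norm_num) (by norm_num)
    simpa using this
  have hA : (fun x => (1 / 2 : ℝ) • p + x) '' ((1 / 4 : ℝ) • L) ⊆ L := by
    rintro _ ⟨_, ⟨y, hy, rfl⟩, rfl⟩
    have h1 := hcv hy h0 (a := 1 / 2) (b := 1 / 2) (by norm_num) (by norm_num) (by norm_num)
    have h3 := hcv hp h1 (a := 1 / 2) (b := 1 / 2) (by norm_num) (by norm_num) (by norm_num)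
    convert h3 using 1
    simp only [smul_zero, add_zero, smul_smul]
    norm_num
  have hAc : IsCompact ((fun x => (1 / 2 : ℝ) • p + x) '' ((1 / 4 : ℝ) • L)) :=
    (hL.1.smul _).image (by fun_prop)
  have hAv : vol ((fun x => (1 / 2 : ℝ) • p + x) '' ((1 / 4 : ℝ) • L)) = vol L / 64 := by
    rw [vol_translate, vol_smul _ (by norm_num)]
    ring
  have hcont : Continuous fun x : E 3 => ⟪x, p⟫ ^ 2 := by fun_prop
  have h3 : (‖p‖ ^ 2 / 4) ^ 2 * vol ((fun x => (1 / 2 : ℝ) • p + x) '' ((1 / 4 : ℝ) • L)) ≤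
      ∫ x in (fun x => (1 / 2 : ℝ) • p + x) '' ((1 / 4 : ℝ) • L), ⟪x, p⟫ ^ 2 := by
    refine setIntegral_ge_of_const_le_real hAc.measurableSet hAc.measure_lt_top.ne ?_
      (hcont.continuousOn.integrableOn_compact hAc)
    rintro _ ⟨_, ⟨y, hy, rfl⟩, rfl⟩
    have h4 : ‖y‖ ≤ ‖p‖ := hmax hy
    have h5 : |⟪y, p⟫| ≤ ‖y‖ * ‖p‖ := abs_real_inner_le_norm y p
    have h6 : ‖y‖ * ‖p‖ ≤ ‖p‖ * ‖p‖ := mul_le_mul_of_nonneg_right h4 (norm_nonneg _)
    have h7 := neg_abs_le ⟪y, p⟫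
    refine pow_le_pow_left₀ (by positivity) ?_ 2
    simp only [inner_add_left, real_inner_smul_left, real_inner_self_eq_norm_sq]
    nlinarith
  have h4 : ∫ x in (fun x => (1 / 2 : ℝ) • p + x) '' ((1 / 4 : ℝ) • L), ⟪x, p⟫ ^ 2 ≤
      ∫ x in L, ⟪x, p⟫ ^ 2 :=
    setIntegral_mono_set (hcont.continuousOn.integrableOn_compact hL.1)
      (Eventually.of_forall fun x => sq_nonneg _) hA.eventuallyLE
  rw [h p, hAv] at *
  have h5 : ‖p‖ ≤ 32 := by
    by_contra hlt
    push Not at hlt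
    have h6 : c * ‖p‖ ^ 2 ≤ vol L * ‖p‖ ^ 2 := mul_le_mul_of_nonneg_right hc (sq_nonneg _)
    have h7 : 1024 < ‖p‖ ^ 2 := by nlinarith
    have h8 : 0 < vol L * ‖p‖ ^ 2 := by positivity
    have h9 := mul_lt_mul_of_pos_left h7 h8
    nlinarith
  intro x hx
  exact mem_closedBall_zero_iff.2 (le_trans (hmax hx) h5)

theorem exists_pos {K : Set (E 3)} (hK : IsBody K) (hs : Sym K) :
    ∃ T : E 3 ≃ₗ[ℝ] E 3, InPos3 (T '' K) := by
  obtain ⟨T, c, hT⟩ := exists_iso hK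
  have hK1 := hK.lin T
  have hs1 := hs.lin T
  obtain ⟨ρ, w, hρ, hw, hb, hw'⟩ := touch hK1 hs1
  let e : E 3 := EuclideanSpace.single 2 (1 : ℝ)
  let U : E 3 ≃ₗᵢ[ℝ] E 3 := (ℝ ∙ (w - e))ᗮ.reflection
  have hU : U w = e := Submodule.reflection_sub (by simp [hw, e])
  let S : E 3 ≃ₗ[ℝ] E 3 :=
    U.toLinearEquiv.trans (LinearEquiv.smulOfNeZero ℝ (E 3) ρ⁻¹ (inv_ne_zero hρ.ne'))
  have hS : ∀ x, S x = ρ⁻¹ • U x := fun x => rfl
  have e1 : (T.trans S) '' K = S '' (T '' K) := by rw [image_image]; rfl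
  have hL := hK1.lin S
  have hsL := hs1.lin S
  have slab : ∀ x ∈ S '' (T '' K), x 2 ≤ 1 := by
    rintro _ ⟨x, hx, rfl⟩
    rw [← iso_single, hS, real_inner_smul_left]
    change ρ⁻¹ * ⟪U x, e⟫ ≤ 1
    rw [← hU, U.inner_map_map, inv_mul_le_iff₀ hρ, mul_one]
    exact hw' x hx
  have iso : ∀ v : E 3, ∫ x in S '' (T '' K), ⟪x, v⟫ ^ 2 =
      (|LinearMap.det (S : E 3 →ₗ[ℝ] E 3)| * ρ⁻¹ ^ 2 * c) * ‖v‖ ^ 2 := by
    intro v
    rw [setIntegral_lin hK1.1.measurableSet]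
    have : ∀ x, ⟪S x, v⟫ ^ 2 = ρ⁻¹ ^ 2 * ⟪x, U.symm v⟫ ^ 2 := fun x => by
      rw [hS, real_inner_smul_left, mul_pow, ← U.inner_map_map x, U.apply_symm_apply]
    simp only [this]
    rw [integral_const_mul, hT, U.symm.norm_map]
    ring
  refine ⟨T.trans S, ?_⟩
  rw [e1]
  refine ⟨hL, hsL, fun y hy => ⟨U.symm (ρ • y), hb ?_, ?_⟩, slab, iso_big hL hsL slab iso, ?_⟩
  · rw [mem_closedBall_zero_iff] at hy ⊢
    rw [U.symm.norm_map, norm_smul, Real.norm_of_nonneg hρ.le]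
    nlinarith
  · rw [hS, U.apply_symm_apply, smul_smul, inv_mul_cancel₀ hρ.ne', one_smul]
  · have hi : ∀ i : Fin 3, IntegrableOn (fun x : E 3 => x i ^ 2) (S '' (T '' K)) := fun i =>
      (by fun_prop : Continuous fun x : E 3 => x i ^ 2).continuousOn.integrableOn_compact hL.1
    rw [integral_add (hi 0) (hi 1), iso_coord iso, iso_coord iso, iso_coord iso]
    linarith

end Vale.Agent.P237C
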