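import Vale.Agent.P237C.Defs

/-! Isotropic position.

PLAN.  B u v = ∫ x in K, ⟪x,u⟫ * ⟪x,v⟫ is a symmetric bilinear form, positive definite (K has
interior, hyperplanes are null: `EqA.null`, `setIntegral_pos_iff_support_of_nonneg_ae`).  Take a basis b
orthogonal for B (`LinearMap.BilinForm.exists_orthogonal_basis`, or the spectral theorem
`LinearMap.IsSymmetric.eigenvectorBasis`), scaled so that B (b i) (b i) = 1, and
T x = ∑ i, ⟪x, b i⟫ • e i (injective, `LinearEquiv.ofInjectiveEndo`).  Then ⟪T x, v⟫ = ⟪x, ∑ v i • b i⟫,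
and ∫ over T '' K of f = |det T| * ∫ over K of f ∘ T (`integral_image_eq_integral_abs_det_fderiv_smul`
or `Measure.map_linearMap_addHaar_eq_smul_addHaar`). -/

namespace Vale.Agent.P237C

open Vale.Agent.P237B MeasureTheory Metric Set Real Filter Topology
open scoped Pointwise RealInnerProductSpace

variable {n : ℕ}

theorem setIntegral_lin {K : Set (E n)} (hK : MeasurableSet K) (T : E n ≃ₗ[ℝ] E n) (f : E n → ℝ) :
    ∫ x in T '' K, f x = |LinearMap.det (T : E n →ₗ[ℝ] E n)| * ∫ x in K, f (T x) := by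
  have h := integral_image_eq_integral_abs_det_fderiv_smul volume hK
    (f := T) (f' := fun _ => LinearMap.toContinuousLinearMap (T : E n →ₗ[ℝ] E n))
    (fun x _ => (LinearMap.toContinuousLinearMap (T : E n →ₗ[ℝ] E n)).hasFDerivWithinAt)
    T.injective.injOn f
  rw [h, ← integral_const_mul]
  rfl

theorem IsoA.normal (B : LinearMap.BilinForm ℝ (E n)) (hs : LinearMap.IsSymm B)
    (hp : ∀ v, v ≠ 0 → 0 < B v v) : ∃ S : E n →ₗ[ℝ] E n, ∀ v, B (S v) (S v) = ‖v‖ ^ 2 := by
  obtain ⟨b₀, hb₀⟩ := LinearMap.BilinForm.exists_orthogonal_basis hs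
  obtain ⟨b, h1, h2⟩ : ∃ b : Fin n → E n, (∀ i, b i ≠ 0) ∧ ∀ i j, i ≠ j → B (b i) (b j) = 0 :=
    ⟨fun i => b₀ (Fin.cast finrank_euclideanSpace_fin.symm i), fun i => b₀.ne_zero _,
      fun i j h => hb₀ ((Fin.cast_injective _).ne h)⟩
  obtain ⟨c, h3⟩ : ∃ c : Fin n → E n, ∀ i j, B (c i) (c j) = if i = j then 1 else 0 := by
    refine ⟨fun i => (√(B (b i) (b i)))⁻¹ • b i, fun i j => ?_⟩
    simp only [map_smul, LinearMap.smul_apply, smul_eq_mul]
    split_ifs with h
    · subst h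
      have h4 := hp _ (h1 i)
      rw [← mul_assoc, ← mul_inv, mul_self_sqrt h4.le, inv_mul_cancel₀ h4.ne']
    · rw [h2 i j h, mul_zero, mul_zero]
  refine ⟨Fintype.linearCombination ℝ c ∘ₗ (WithLp.linearEquiv 2 ℝ (Fin n → ℝ)).toLinearMap,
    fun v => ?_⟩
  change B (∑ i, v i • c i) (∑ i, v i • c i) = _
  rw [EuclideanSpace.real_norm_sq_eq]
  simp only [map_sum, map_smul, LinearMap.sum_apply, LinearMap.smul_apply, smul_eq_mul, h3, mul_ite,
    mul_one, mul_zero, Finset.sum_ite_eq', Finset.mem_univ, if_true, sq]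

theorem exists_iso {K : Set (E n)} (hK : IsBody K) :
    ∃ (T : E n ≃ₗ[ℝ] E n) (c : ℝ), ∀ v : E n, ∫ x in T '' K, ⟪x, v⟫ ^ 2 = c * ‖v‖ ^ 2 := by
  have hi : ∀ u v : E n, IntegrableOn (fun x : E n => ⟪x, u⟫ * ⟪x, v⟫) K := fun u v =>
    ContinuousOn.integrableOn_compact hK.1 (by fun_prop)
  let B : LinearMap.BilinForm ℝ (E n) := LinearMap.mk₂ ℝ (fun u v => ∫ x in K, ⟪x, u⟫ * ⟪x, v⟫)
    (fun u u' v => by
      simp only [inner_add_right, add_mul]
      exact integral_add (hi u v) (hi u' v))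
    (fun c u v => by
      simp only [real_inner_smul_right, mul_assoc, smul_eq_mul]
      exact integral_const_mul _ _)
    (fun u v v' => by
      simp only [inner_add_right, mul_add]
      exact integral_add (hi u v) (hi u v'))
    (fun c u v => by
      simp only [real_inner_smul_right, mul_left_comm _ c, smul_eq_mul]
      exact integral_const_mul _ _)
  have hB : ∀ u v, B u v = ∫ x in K, ⟪x, u⟫ * ⟪x, v⟫ := fun _ _ => rfl
  obtain ⟨S, hS⟩ := IsoA.normal B ⟨fun u v => by simp only [hB, mul_comm, RingHom.id_apply]⟩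
    fun v hv => by
      rw [hB, setIntegral_pos_iff_support_of_nonneg_ae
        (Eventually.of_forall fun x => mul_self_nonneg _) (hi v v)]
      refine pos_iff_ne_zero.2 fun h0 => (Measure.measure_pos_of_nonempty_interior _ hK.2.2).ne'
        (measure_mono_null (fun x hx => ?_) (measure_union_null h0 (EqA.null hv 0)))
      by_cases h : ⟪x, v⟫ = 0
      exacts [Or.inr h, Or.inl ⟨mul_ne_zero h h, hx⟩]
  have h1 : Function.Injective S := (injective_iff_map_eq_zero S).2 fun v hv => by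
    have h2 := hS v
    rw [hv, map_zero] at h2
    exact norm_eq_zero.1 (pow_eq_zero_iff two_ne_zero |>.1 h2.symm)
  have h2 : LinearMap.det (LinearMap.adjoint S) ≠ 0 := by
    rw [Cov.det_adjoint]
    exact Cov.det_ne (LinearEquiv.ofInjectiveEndo S h1)
  refine ⟨LinearMap.equivOfDetNeZero _ h2,
    |LinearMap.det (LinearMap.equivOfDetNeZero _ h2 : E n →ₗ[ℝ] E n)|, fun v => ?_⟩
  rw [setIntegral_lin hK.1.measurableSet, ← hS, hB]
  congr 2
  funext x
  rw [← sq, ← LinearMap.adjoint_inner_left]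
  rfl

end Vale.Agent.P237C
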