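import Vale.Agent.P237C.Iso

/-! Existence of a minimiser among symmetric bodies.

PLAN.  C = {L : TopologicalSpace.NonemptyCompacts (E 3) | closedBall 0 1 ⊆ L ⊆ closedBall 0 32, convex,
Sym} is a closed subset of the compact set `NonemptyCompacts.isCompact_subsets_of_isCompact`
(closedness: x ∈ L iff infDist x L = 0, `lipschitz_infDist`, `NonemptyCompacts.dist_eq`,
`exists_dist_lt_of_hausdorffDist_lt`; or argue with sequences, `IsCompact.tendsto_subseq`).
If L, L' ∈ C and dist L L' < ε then L ⊆ L' + closedBall 0 ε ⊆ (1+ε) • L', hence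
vol L ≤ (1+ε)^3 vol L' (`vol_smul`) and projBody L ⊆ projBody ((1+ε) • L') ⊆ (1+ε)^2 • projBody L'
(`projBody_mono`, `hh_smul_set`, `mem_projBody`), so R L ≤ (1+ε)^12 R L' (sandwich).  So R is continuous
on C and has a minimum L₀ (`IsCompact.exists_isMinOn`).  For a symmetric body K use `exists_pos`
and `R_lin`. -/

namespace Vale.Agent.P237C

open Vale.Agent.P237B MeasureTheory Metric Set Real Filter Topology
open scoped Pointwise RealInnerProductSpace

namespace Min

theorem body_smul {L : Set (E 3)} (hL : IsBody L) {c : ℝ} (hc : 0 < c) : IsBody (c • L) :=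
  ⟨hL.1.smul c, hL.2.1.smul c, by
    rw [interior_smul₀ hc.ne']
    exact hL.2.2.smul_set⟩

theorem proj_sub {L L' : Set (E 3)} (hL' : IsBody L') {c : ℝ} (hc : 0 < c) (h1 : L ⊆ c • L') :
    projBody L ⊆ c ^ 2 • projBody L' := by
  intro x hx
  have h2 := projBody_mono h1 (body_smul hL' hc).1 hx
  rw [mem_smul_set_iff_inv_smul_mem₀ (pow_pos hc 2).ne', mem_projBody]
  intro a
  have h3 := mem_projBody.1 h2 a
  rw [hh_smul_set hL'.1 hL'.2.1 hc] at h3
  rw [real_inner_smul_left, inv_mul_le_iff₀ (pow_pos hc 2)]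
  exact h3

end Min

theorem sandwich {L L' : Set (E 3)} (hL : IsBody L) (hL' : IsBody L') {c : ℝ} (hc : 0 < c)
    (h1 : L ⊆ c • L') (h2 : L' ⊆ c • L) : R L ≤ c ^ 12 * R L' := by
  have h3 : vol (projBody L) ≤ (c ^ 2) ^ 3 * vol (projBody L') :=
    (vol_mono (Min.proj_sub hL' hc h1) ((body_proj hL').1.smul _)).trans_eq
      (vol_smul _ (pow_pos hc 2).le)
  have h4 : vol L' ≤ c ^ 3 * vol L := (vol_mono h2 (hL.1.smul c)).trans_eq (vol_smul _ hc.le)
  have h5 := hL.vol_pos
  have h6 := hL'.vol_pos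
  have h7 := (body_proj hL').vol_pos
  have h8 : vol L' ^ 2 ≤ (c ^ 3 * vol L) ^ 2 := pow_le_pow_left₀ h6.le h4 2
  change vol (projBody L) / vol L ^ 2 ≤ c ^ 12 * (vol (projBody L') / vol L' ^ 2)
  rw [← mul_div_assoc, div_le_div_iff₀ (pow_pos h5 2) (pow_pos h6 2)]
  calc vol (projBody L) * vol L' ^ 2
      ≤ ((c ^ 2) ^ 3 * vol (projBody L')) * (c ^ 3 * vol L) ^ 2 :=
        mul_le_mul h3 h8 (by positivity) (by positivity)
    _ = _ := by ring

namespace Min

open TopologicalSpace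

theorem near (L L' : NonemptyCompacts (E 3)) {x : E 3} (hx : x ∈ (L : Set (E 3))) :
    ∃ y ∈ (L' : Set (E 3)), dist x y ≤ dist L L' := by
  obtain ⟨y, hy, e⟩ := L'.isCompact.exists_infDist_eq_dist L'.nonempty x
  exact ⟨y, hy, e ▸ infDist_le_hausdorffDist_of_mem hx (edist_ne_top L L')⟩

/-- The admissible sets, without the outer bound. -/
def Adm : Set (NonemptyCompacts (E 3)) :=
  {L | closedBall 0 1 ⊆ (L : Set (E 3)) ∧ Convex ℝ (L : Set (E 3)) ∧ Sym (L : Set (E 3))}

theorem mem_of_near {L : NonemptyCompacts (E 3)} (hL : L ∈ closure Adm) {x : E 3}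
    (h : ∀ L' ∈ Adm, ∃ y ∈ (L' : Set (E 3)), dist x y ≤ dist L L') : x ∈ (L : Set (E 3)) := by
  rw [← L.isCompact.isClosed.closure_eq, Metric.mem_closure_iff]
  intro ε hε
  obtain ⟨L', h1, h2⟩ := Metric.mem_closure_iff.1 hL (ε / 2) (half_pos hε)
  obtain ⟨y, hy, h3⟩ := h L' h1
  obtain ⟨z, hz, h4⟩ := near L' L hy
  rw [dist_comm L'] at h4
  exact ⟨z, hz, by linarith [dist_triangle x y z]⟩

theorem closed_adm : IsClosed Adm := by
  refine isClosed_of_closure_subset fun L hL => ⟨fun x hx => ?_, ?_, fun x hx => ?_⟩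
  · exact mem_of_near hL fun L' h => ⟨x, h.1 hx, by simp⟩
  · intro x hx y hy a b ha hb hab
    refine mem_of_near hL fun L' h => ?_
    obtain ⟨x', hx', h1⟩ := near L L' hx
    obtain ⟨y', hy', h2⟩ := near L L' hy
    refine ⟨a • x' + b • y', h.2.1 hx' hy' ha hb hab, (dist_add_add_le _ _ _ _).trans ?_⟩
    rw [dist_smul₀, dist_smul₀, Real.norm_of_nonneg ha, Real.norm_of_nonneg hb]
    calc a * dist x x' + b * dist y y' ≤ a * dist L L' + b * dist L L' := by gcongr
      _ = _ := by rw [← add_mul, hab, one_mul]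
  · refine mem_of_near hL fun L' h => ?_
    obtain ⟨x', hx', h1⟩ := near L L' hx
    exact ⟨-x', h.2.2 _ hx', by rwa [dist_neg_neg]⟩

theorem body_adm {L : NonemptyCompacts (E 3)} (h : L ∈ Adm) : IsBody (L : Set (E 3)) :=
  ⟨L.isCompact, h.2.1, 0, mem_interior_iff_mem_nhds.2
    (mem_of_superset (closedBall_mem_nhds 0 one_pos) h.1)⟩

theorem sub_smul (L : NonemptyCompacts (E 3)) {L' : NonemptyCompacts (E 3)} (h : L' ∈ Adm) :
    (L : Set (E 3)) ⊆ (1 + dist L L') • (L' : Set (E 3)) := by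
  intro x hx
  obtain ⟨y, hy, h1⟩ := near L L' hx
  rw [h.2.1.add_smul zero_le_one dist_nonneg, one_smul]
  refine ⟨y, hy, x - y, smul_set_mono h.1 ?_, add_sub_cancel y x⟩
  rw [smul_unitClosedBall_of_nonneg dist_nonneg, mem_closedBall_zero_iff, ← dist_eq_norm]
  exact h1

theorem sand {L L' : NonemptyCompacts (E 3)} (h : L ∈ Adm) (h' : L' ∈ Adm) :
    R (L : Set (E 3)) ≤ (1 + dist L L') ^ 12 * R (L' : Set (E 3)) :=
  sandwich (body_adm h) (body_adm h') (by positivity) (sub_smul L h')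
    (dist_comm L L' ▸ sub_smul L' h)

theorem cont : ContinuousOn (fun L : NonemptyCompacts (E 3) => R (L : Set (E 3))) Adm := by
  intro L hL
  have h1 : Continuous fun L' : NonemptyCompacts (E 3) => (1 + dist L L') ^ 12 := by fun_prop
  have h2 : Tendsto (fun L' : NonemptyCompacts (E 3) => (1 + dist L L') ^ 12) (𝓝[Adm] L) (𝓝 1) := by
    simpa using (h1.tendsto L).mono_left (nhdsWithin_le_nhds (s := Adm))
  have h3 := h2.mul_const (R (L : Set (E 3)))
  have h4 := (h2.inv₀ one_ne_zero).mul_const (R (L : Set (E 3)))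
  rw [one_mul] at h3
  rw [inv_one, one_mul] at h4
  refine tendsto_of_tendsto_of_tendsto_of_le_of_le' h4 h3 ?_ ?_
  · filter_upwards [self_mem_nhdsWithin] with L' hL'
    rw [inv_mul_le_iff₀ (by positivity)]
    exact sand hL hL'
  · filter_upwards [self_mem_nhdsWithin] with L' hL'
    exact dist_comm L L' ▸ sand hL' hL

end Min

theorem exists_min : ∃ K₀ : Set (E 3), IsBody K₀ ∧ Sym K₀ ∧
    ∀ K : Set (E 3), IsBody K → Sym K → R K₀ ≤ R K := by
  have hc := (TopologicalSpace.NonemptyCompacts.isCompact_subsets_of_isCompact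
    (isCompact_closedBall (0 : E 3) 32)).inter_right Min.closed_adm
  obtain ⟨L, hL, hm⟩ := hc.exists_isMinOn
    ⟨⟨⟨closedBall 0 1, isCompact_closedBall _ _⟩, nonempty_closedBall.2 zero_le_one⟩,
      closedBall_subset_closedBall (by norm_num), Subset.rfl, convex_closedBall _ _,
      fun x hx => by simpa using hx⟩ (Min.cont.mono inter_subset_right)
  refine ⟨L, Min.body_adm hL.2, hL.2.2.2, fun K hK hs => ?_⟩
  obtain ⟨T, hT⟩ := exists_pos hK hs
  rw [← R_lin hK T]
  exact hm (a := ⟨⟨T '' K, hT.body.1⟩, hT.body.2.2.mono interior_subset⟩)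
    ⟨hT.big, hT.ball, hT.body.2.1, hT.sym⟩

end Vale.Agent.P237C
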