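import Vale.Agent.P237C.CertB

/-! The calibration function and its derivatives. -/

namespace Vale.Agent.P237C

open Set Real Filter Topology

/-- The calibration. -/
noncomputable def Sf (t y : ℝ) : ℝ :=
  √(t ^ 2 + y ^ 2 - 1) ^ 3 * s3 t y + (t ^ 2 + y ^ 2 - 1) ^ 2 * s4 t y

theorem cube_deriv {x : ℝ} (hx : 0 ≤ x) : HasDerivAt (fun z => √z ^ 3) (3 / 2 * √x) x := by
  rcases hx.eq_or_lt with rfl | h
  · rw [hasDerivAt_iff_tendsto_slope_zero]
    have h1 : Tendsto (fun z : ℝ => √z) (𝓝[≠] 0) (𝓝 (3 / 2 * √0)) := by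
      rw [sqrt_zero, mul_zero]
      simpa using (continuous_sqrt.tendsto 0).mono_left nhdsWithin_le_nhds
    refine h1.congr' ?_
    filter_upwards [self_mem_nhdsWithin] with z hz
    have hz' : z ≠ 0 := hz
    rcases le_total 0 z with h | h
    · rw [zero_add, sqrt_zero, pow_succ, sq_sqrt h]
      simp [hz']
    · simp [sqrt_eq_zero_of_nonpos h]
  · have h1 := sqrt_pos.2 h
    refine ((hasDerivAt_sqrt h.ne').fun_pow 3).congr_deriv ?_
    field_simp
    norm_num [mul_comm]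

theorem Sf_deriv {u y : ℝ → ℝ} {u' p x : ℝ} {s : Set ℝ} (hu : HasDerivWithinAt u u' s x)
    (hy : HasDerivWithinAt y p s x) (he : 0 ≤ u x ^ 2 + y x ^ 2 - 1) :
    HasDerivWithinAt (fun τ => Sf (u τ) (y τ))
      (St (u x) (y x) √(u x ^ 2 + y x ^ 2 - 1) * u' + Sy (u x) (y x) √(u x ^ 2 + y x ^ 2 - 1) * p)
      s x := by
  have h1 := ((hu.fun_pow 2).fun_add (hy.fun_pow 2)).sub_const 1
  have h2 := (cube_deriv he).comp_hasDerivWithinAt x h1
  have h3 := (hu.fun_mul (((((((hy.const_mul 422).const_add (-347)).fun_sub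
    ((hy.fun_pow 2).const_mul 70)).fun_add (hu.const_mul 155)).fun_sub
    ((hu.const_mul 108).fun_mul hy)).fun_add ((hu.fun_pow 2).const_mul 27)))).div_const 1000
  have h4 := (hu.fun_mul ((hy.const_mul 68).const_add (-250))).div_const 1000
  refine ((h2.fun_mul h3).fun_add ((h1.fun_pow 2).fun_mul h4)).congr_deriv ?_
  have e := sq_sqrt he
  simp only [St, Sy, s3, s3t, s3y, s4, Function.comp]
  generalize √(u x ^ 2 + y x ^ 2 - 1) = T at e ⊢
  rw [← e]
  push_cast
  ring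

theorem continuous_Sf : Continuous fun z : ℝ × ℝ => Sf z.1 z.2 := by
  unfold Sf s3 s4
  fun_prop

theorem Sf_zero (y : ℝ) : Sf 0 y = 0 := by simp [Sf, s3, s4]

theorem slope_ineq {t y T A p : ℝ} (ht : t ^ 2 < 1)
    (h : 0 ≤ Fc t y T A ((1 - t ^ 2) * p + t * y)) :
    (y + t * p) / 2 + (y - t * p) / (1 + T ^ 2) / 2 + (St t y T + Sy t y T * p) ≤
      y - T ^ 2 * (A + 61 / 1000 * (4 - 6 * (1 - t ^ 2) - T ^ 2)) := by
  rw [← sub_nonneg]
  refine nonneg_of_mul_nonneg_right (h.trans_eq ?_) (sub_pos.2 ht)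
  rw [Fc]
  generalize St t y T = a, Sy t y T = b, A + 61 / 1000 * (4 - 6 * (1 - t ^ 2) - T ^ 2) = B
  field_simp
  ring

theorem boundary {y : ℝ} (hy : y ∈ Icc (0 : ℝ) 2) : arctan y / 2 - Sf 1 y ≤ y / 2 := by
  have hc : Continuous fun z => Sf 1 z := by
    unfold Sf s3 s4
    fun_prop
  refine image_le_of_deriv_right_le_deriv_boundary (f := fun z => arctan z / 2 - Sf 1 z)
    (f' := fun z => 1 / (1 + z ^ 2) / 2 - Sy 1 z z) (B := fun z => z / 2) (B' := fun _ => 1 / 2)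
    ((continuous_arctan.div_const 2).sub hc).continuousOn (fun z hz => ?_)
    (by simp [Sf]) (by fun_prop) (fun z _ => ((hasDerivAt_id z).div_const 2).hasDerivWithinAt)
    (fun z hz => ?_) hy
  · have h1 := Sf_deriv (hasDerivWithinAt_const z (Ici z) (1 : ℝ)) (hasDerivWithinAt_id z (Ici z))
      (by simp only [id]; nlinarith)
    simp only [id, one_pow, add_sub_cancel_left, sqrt_sq hz.1, mul_zero, zero_add, mul_one] at h1
    exact ((hasDerivAt_arctan z).div_const 2).hasDerivWithinAt.fun_sub h1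
  · rcases hz.1.eq_or_lt with rfl | h0
    · simp [Sy]
    have h1 := cert (t := 1) (y := z) (T := z) (ξ := -z) (m := 8) zero_le_one le_rfl hz.1 hz.1
      hz.2.le (by ring) (by norm_num) (fun h => by
        rw [div_le_iff₀ (by positivity)]
        nlinarith [pow_le_one₀ (n := 3) hz.1 h, sq_nonneg z]) (by
        rw [one_mul, sub_self, zero_div]
        nlinarith [hz.2]) (by ring_nf; rfl)
    rw [Fc] at h1
    generalize Sy 1 z z = b at h1 ⊢
    rw [← sub_nonneg]
    refine nonneg_of_mul_nonneg_right (h1.trans_eq ?_) (show 0 < 2 * z by positivity)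
    field_simp
    ring

theorem final_alg {I J m : ℝ} (hm : 0 ≤ m) (hJ : m = 3 / 2 * J - 1)
    (h : π / 4 + 295 / 1000 * (1 + 2 / (2 + m)) * (J - 2 / 3) ≤ I) :
    3 * π ^ 2 / 32 * J ≤ I ^ 2 ∧ (I ^ 2 ≤ 3 * π ^ 2 / 32 * J → J ≤ 2 / 3) := by
  obtain ⟨q, hq⟩ : ∃ q, q = (1 + 2 / (2 + m)) * m := ⟨_, rfl⟩
  have hq0 : m ≤ q := by
    rw [hq]
    exact le_mul_of_one_le_left hm (le_add_of_nonneg_right (by positivity))
  have h1 : 1 + m ≤ (1 + q / 4) ^ 2 := by
    have e : (1 + q / 4) ^ 2 - (1 + m) = m ^ 4 / (16 * (2 + m) ^ 2) := by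
      rw [hq]
      field_simp
      ring
    have : 0 ≤ m ^ 4 / (16 * (2 + m) ^ 2) := by positivity
    linarith
  have h2 : π / 4 + 295 / 1500 * q ≤ I := by
    rw [hq]
    refine le_of_eq_of_le ?_ h
    rw [show J - 2 / 3 = 2 / 3 * m by linarith]
    ring
  have hπ := pi_lt_d4
  have hπ0 := pi_pos
  have h3 : 3 * π ^ 2 / 32 * J ≤ (π / 4 + π / 16 * q) ^ 2 := by
    have := mul_le_mul_of_nonneg_left h1 (show 0 ≤ π ^ 2 / 16 by positivity)
    rw [show J = 2 / 3 * (1 + m) by linarith]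
    linarith
  have h4 : 0 ≤ π / 4 + π / 16 * q := by
    have := hm.trans hq0
    positivity
  have h5 : π / 16 * q ≤ 295 / 1500 * q := mul_le_mul_of_nonneg_right (by linarith) (hm.trans hq0)
  refine ⟨h3.trans (pow_le_pow_left₀ h4 (by linarith) 2), fun h6 => ?_⟩
  have h7 := (pow_le_pow_iff_left₀ (by linarith) h4 two_ne_zero).1 (h6.trans h3)
  have h8 : q ≤ 0 := by
    by_contra hc
    have := mul_lt_mul_of_pos_right (show π / 16 < 295 / 1500 by linarith) (not_le.1 hc)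
    linarith
  linarith

end Vale.Agent.P237C
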