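import Vale.Agent.P237C.Tent
import Vale.Agent.P237C.OneA

/-! The one-dimensional inequality (calibration argument). -/

namespace Vale.Agent.P237C

open Vale.Agent.P237B MeasureTheory Metric Set Real Filter Topology

variable {r : ℝ → ℝ}

/-- The integrand of the calibrated functional. -/
noncomputable def Fi (A t y : ℝ) : ℝ :=
  y - (t ^ 2 + y ^ 2 - 1) * (A + 61 / 1000 * (4 - 6 * (1 - t ^ 2) - (t ^ 2 + y ^ 2 - 1)))

theorem Prof.pos (h : Prof r) {t : ℝ} (ht : t ∈ Ioo (-1 : ℝ) 1) : 0 < r t :=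
  (sqrt_pos.2 (by nlinarith [ht.1, ht.2])).trans_le (h.ge t (Ioo_subset_Icc_self ht))

theorem Prof.m_nonneg (h : Prof r) : 0 ≤ 3 / 2 * (∫ τ in (0 : ℝ)..1, r τ ^ 2) - 1 := by
  have h0 : (0 : ℝ) ∈ Icc (-1 : ℝ) 1 := ⟨by norm_num, by norm_num⟩
  refine le_trans ?_ (h.tent2 ⟨le_rfl, one_pos⟩ (sqrt_nonneg _) (sq_sqrt (h.e_nonneg h0)))
  have := h.nonneg h0
  simp only [zero_mul, sub_zero, mul_zero, add_zero]
  positivity

theorem Prof.path (h : Prof r) {m : ℝ} (hm : m = 3 / 2 * (∫ τ in (0 : ℝ)..1, r τ ^ 2) - 1) {b : ℝ}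
    (hb : b ∈ Ico (0 : ℝ) 1) : b * r b / 2 + arctan (b / r b) / 2 + Sf b (r b) ≤
      ∫ τ in (0 : ℝ)..b, Fi (295 / 1000 * (1 + 2 / (2 + m))) τ (r τ) := by
  have hm0 : 0 ≤ m := hm ▸ h.m_nonneg
  have hs : ∀ t ∈ Icc 0 b, t ∈ Ioo (-1 : ℝ) 1 := fun t ht =>
    ⟨by linarith [ht.1], ht.2.trans_lt hb.2⟩
  choose! p hp hp' using fun t (ht : t ∈ Ioo (-1 : ℝ) 1) => h.slope ht
  generalize hA : 295 / 1000 * (1 + 2 / (2 + m)) = A
  have hc : ContinuousOn r (Icc 0 b) := h.cont.mono hs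
  have hF : ContinuousOn (fun τ => Fi A τ (r τ)) (Ioo (-1) 1) := by
    have := h.cont
    unfold Fi
    fun_prop
  have hd : ∀ t ∈ Icc 0 b, HasDerivAt (fun s => ∫ τ in (0 : ℝ)..s, Fi A τ (r τ)) (Fi A t (r t)) t :=
    fun t ht => intervalIntegral.integral_hasDerivAt_right
      ((hF.mono fun s hs' => hs s (Icc_subset_Icc_right ht.2 (uIcc_of_le ht.1 ▸ hs'))).intervalIntegrable)
      (hF.stronglyMeasurableAtFilter isOpen_Ioo t (hs t ht))
      (hF.continuousAt (isOpen_Ioo.mem_nhds (hs t ht)))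
  refine image_le_of_deriv_right_le_deriv_boundary
    (f := fun t => t * r t / 2 + arctan (t / r t) / 2 + Sf t (r t))
    (f' := fun t => (r t + t * p t) / 2 + (r t - t * p t) / (1 + √(t ^ 2 + r t ^ 2 - 1) ^ 2) / 2 +
      (St t (r t) √(t ^ 2 + r t ^ 2 - 1) + Sy t (r t) √(t ^ 2 + r t ^ 2 - 1) * p t))
    (B := fun s => ∫ τ in (0 : ℝ)..s, Fi A τ (r τ)) (B' := fun t => Fi A t (r t)) ?_
    (fun t ht => ?_) (by simp [Sf_zero]) (fun t ht => (hd t ht).continuousAt.continuousWithinAt)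
    (fun t ht => (hd t (Ico_subset_Icc_self ht)).hasDerivWithinAt) (fun t ht => ?_)
    (right_mem_Icc.2 hb.1)
  · refine (((continuousOn_id.mul hc).div_const 2).add ((continuous_arctan.comp_continuousOn
      (continuousOn_id.div hc fun t ht => (h.pos (hs t ht)).ne')).div_const 2)).add ?_
    unfold Sf s3 s4
    fun_prop
  · have ht' := hs t (Ico_subset_Icc_self ht)
    have h0 := h.pos ht'
    have he := h.e_nonneg (Ioo_subset_Icc_self ht')
    have h1 := hasDerivWithinAt_id t (Ici t)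
    refine ((((h1.fun_mul (hp t ht')).div_const 2).fun_add
      ((h1.fun_div (hp t ht') h0.ne').arctan.div_const 2)).fun_add
      (Sf_deriv h1 (hp t ht') he)).congr_deriv ?_
    simp only [id, mul_one, one_mul, sq_sqrt he]
    have : t ^ 2 + r t ^ 2 ≠ 0 := by positivity
    rw [add_sub_cancel]
    field_simp
    ring
  · have ht' := hs t (Ico_subset_Icc_self ht)
    have he := sq_sqrt (h.e_nonneg (Ioo_subset_Icc_self ht'))
    have ht1 : t ∈ Ico (0 : ℝ) 1 := ⟨ht.1, ht'.2⟩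
    have h1 := cert ht.1 ht'.2.le (sqrt_nonneg _) (h.pos ht').le (h.le_two ⟨ht.1, ht'.2.le⟩) he hm0
      (fun hy => hm ▸ h.tent1 ht1 (sqrt_nonneg _) he hy) (hm ▸ h.tent2 ht1 (sqrt_nonneg _) he)
      ((hp' t ht').trans he.ge)
    rw [hA] at h1
    refine (slope_ineq (by nlinarith [ht'.1, ht'.2]) h1).trans_eq ?_
    rw [he, Fi]

theorem Prof.integral_Fi (h : Prof r) (A : ℝ) :
    IntervalIntegrable (fun τ => Fi A τ (r τ)) volume 0 1 ∧ ∫ τ in (0 : ℝ)..1, Fi A τ (r τ) ≤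
      (∫ τ in (0 : ℝ)..1, r τ) - A * ((∫ τ in (0 : ℝ)..1, r τ ^ 2) - 2 / 3) := by
  have h0 : (0 : ℝ) ∈ Icc (0 : ℝ) 1 := left_mem_Icc.2 zero_le_one
  have h1 : (1 : ℝ) ∈ Icc (0 : ℝ) 1 := right_mem_Icc.2 zero_le_one
  have i1 := h.ii 0 1 h0 h1
  have i2 := h.ii 0 2 h0 h1
  have i3 := h.ii 0 4 h0 h1
  have i4 := h.ii 2 2 h0 h1
  simp only [pow_zero, pow_one, one_mul] at i1 i2 i3
  have i5 : ∀ k : ℕ, IntervalIntegrable (fun τ : ℝ => τ ^ k) volume 0 1 := fun k =>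
    (continuous_pow k).intervalIntegrable _ _
  have e : (fun τ => Fi A τ (r τ)) = fun τ => r τ - A * r τ ^ 2 + 61 / 1000 * r τ ^ 4 -
      244 / 1000 * (τ ^ 2 * r τ ^ 2) + (A - 61 / 1000) * τ ^ 0 + (366 / 1000 - A) * τ ^ 2 -
      305 / 1000 * τ ^ 4 := by
    ext τ
    rw [Fi]
    ring
  have j1 := i1.sub (i2.const_mul A)
  have j2 := j1.add (i3.const_mul (61 / 1000))
  have j3 := j2.sub (i4.const_mul (244 / 1000))
  have j4 := j3.add ((i5 0).const_mul (A - 61 / 1000))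
  have j5 := j4.add ((i5 2).const_mul (366 / 1000 - A))
  rw [e]
  refine ⟨j5.sub ((i5 4).const_mul _), ?_⟩
  rw [intervalIntegral.integral_sub j5 ((i5 4).const_mul _),
    intervalIntegral.integral_add j4 ((i5 2).const_mul _),
    intervalIntegral.integral_add j3 ((i5 0).const_mul _),
    intervalIntegral.integral_sub j2 (i4.const_mul _),
    intervalIntegral.integral_add j1 (i3.const_mul _),
    intervalIntegral.integral_sub i1 (i2.const_mul _)]
  simp only [intervalIntegral.integral_const_mul, integral_pow]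
  norm_num
  linarith [h.mom]

theorem Prof.main (h : Prof r) :
    3 * π ^ 2 / 32 * ∫ t in (0 : ℝ)..1, r t ^ 2 ≤ (∫ t in (0 : ℝ)..1, r t) ^ 2 ∧
      ((∫ t in (0 : ℝ)..1, r t) ^ 2 ≤ 3 * π ^ 2 / 32 * ∫ t in (0 : ℝ)..1, r t ^ 2 →
        ∫ t in (0 : ℝ)..1, r t ^ 2 ≤ 2 / 3) := by
  refine final_alg h.m_nonneg rfl ?_
  generalize hm : 3 / 2 * (∫ τ in (0 : ℝ)..1, r τ ^ 2) - 1 = m
  have hp := fun b hb => h.path (b := b) hm.symm hb
  generalize 295 / 1000 * (1 + 2 / (2 + m)) = A at hp ⊢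
  obtain ⟨i1, i2⟩ := h.integral_Fi A
  have hI : Ioo (0 : ℝ) 1 ∈ 𝓝[<] (1 : ℝ) := Ioo_mem_nhdsLT one_pos
  have hb : ∀ t ∈ Ioo (0 : ℝ) 1, r t ∈ Icc (0 : ℝ) 2 := fun t ht =>
    ⟨h.nonneg ⟨by linarith [ht.1], ht.2.le⟩, h.le_two (Ioo_subset_Icc_self ht)⟩
  obtain ⟨l, hl⟩ : ∃ l, Tendsto r (𝓝[<] 1) (𝓝 l) :=
    ⟨_, (h.anti.mono Ioo_subset_Icc_self).tendsto_nhdsWithin_Ioo_left (nonempty_Ioo.2 one_pos)
      ⟨0, forall_mem_image.2 fun t ht => (hb t ht).1⟩⟩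
  have hl' := boundary (isClosed_Icc.mem_of_tendsto hl (mem_of_superset hI hb))
  have h1 : Tendsto (fun t : ℝ => t) (𝓝[<] 1) (𝓝 1) := tendsto_id.mono_left nhdsWithin_le_nhds
  have h2 := (((h1.mul hl).div_const 2).add ((((continuous_arctan.tendsto _).comp
    (hl.div h1 one_ne_zero)).const_sub (π / 2)).div_const 2)).add
    ((continuous_Sf.tendsto (1, l)).comp (h1.prodMk_nhds hl))
  have h3 : Tendsto (fun s => ∫ τ in (0 : ℝ)..s, Fi A τ (r τ)) (𝓝[<] 1)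
      (𝓝 (∫ τ in (0 : ℝ)..1, Fi A τ (r τ))) := by
    have := intervalIntegral.continuousOn_primitive_interval' i1 left_mem_uIcc 1 right_mem_uIcc
    rw [uIcc_of_le zero_le_one] at this
    exact this.tendsto.mono_left (nhdsWithin_le_iff.2 (mem_of_superset hI Ioo_subset_Icc_self) |>
      le_inf nhdsWithin_le_nhds ∘ le_principal_iff.2 ∘ fun _ => mem_of_superset hI Ioo_subset_Icc_self)
  have h4 := le_of_tendsto_of_tendsto h2 h3 (by
    filter_upwards [hI] with t ht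
    refine le_of_eq_of_le ?_ (hp t (Ioo_subset_Ico_self ht))
    have h5 := arctan_inv_of_pos (div_pos (h.pos ⟨by linarith [ht.1], ht.2⟩) ht.1)
    rw [inv_div] at h5
    simp only [h5, Function.comp, Pi.div_apply])
  simp only [one_mul, div_one] at h4
  linarith

end Vale.Agent.P237C
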