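import Vale.Agent.P237C.Fub

/-! The profile of a body in normal position.

PLAN.  even: slice K (-t) = -slice K t (`slice_neg`, `Measure.measure_neg`).  conc: `bm` in the plane
for a • slice K s and b • slice K t (`vol_smul`, `slice_comb`, `vol_slice`), with α = a √π r s,
β = b √π r t, then `Real.le_sqrt` / `abs_le_abs`.  ge: `InPos3.disc`, `vol_closedBall`, `kappa_two`.
Slices at height t > 1 are empty.  vol_eq: `fubini_vol`, `integral_even`.
moment_disc: with B = closedBall 0 r and vol S = π r^2 = vol B,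
∫_S (‖y‖^2 - r^2) ≥ ∫_(S ∩ B) ≥ ∫_B (‖y‖^2 - r^2), and ∫_B ‖y‖^2 = π r^4 / 2
(`integral_fun_norm_addHaar`, or `polar` in P237B/Sph with indicator, or layer cake).
mom: `fubini` for x 2 ^ 2 gives 2 ∫_0^1 t^2 π r^2; for x 0 ^ 2 + x 1 ^ 2 it gives
∫ t, ∫_slice ‖y‖^2 ≥ ∫ t, π r^4 / 2 = 2 ∫_0^1 π r^4 / 2 (r^4 = (vol slice / π)^2 is integrable: measurable
and dominated by the slice integral, or bounded by 32^2 r^2). -/

namespace Vale.Agent.P237C

open Vale.Agent.P237B MeasureTheory Metric Set Real Filter Topology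
open scoped Pointwise RealInnerProductSpace

theorem Rad.ball {r : ℝ} (hr : 0 ≤ r) :
    ∫ y in closedBall (0 : E 2) r, ‖y‖ ^ 2 = π * r ^ 4 / 2 := by
  have e1 : ∫ y in closedBall (0 : E 2) r, ‖y‖ ^ 2 =
      ∫ y : E 2, (Iic r).indicator (fun s : ℝ => s ^ 2) ‖y‖ := by
    rw [← integral_indicator measurableSet_closedBall]
    refine integral_congr_ae (Eventually.of_forall fun y => ?_)
    simp only [indicator, mem_closedBall_zero_iff, mem_Iic]
  have e2 : (volume : Measure (E 2)).real (Metric.ball 0 1) = π := by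
    rw [← kappa_two, kappa, vol, Measure.real, Measure.addHaar_closedBall_eq_addHaar_ball]
  have e3 : ∫ y in Ioi (0 : ℝ), y ^ (2 - 1) • (Iic r).indicator (fun s : ℝ => s ^ 2) y =
      r ^ 4 / 4 := by
    have e4 : ∀ y : ℝ, y ^ (2 - 1) • (Iic r).indicator (fun s : ℝ => s ^ 2) y =
        (Iic r).indicator (fun s : ℝ => s ^ 3) y := fun y => by
      by_cases hy : y ∈ Iic r
      · simp only [indicator_of_mem hy, smul_eq_mul]
        ring
      · simp only [indicator_of_notMem hy, smul_zero]
    simp only [e4]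
    rw [setIntegral_indicator measurableSet_Iic, Ioi_inter_Iic,
      ← intervalIntegral.integral_of_le hr, integral_pow]
    norm_num
  rw [e1, integral_fun_norm_addHaar, finrank_euclideanSpace_fin, e2, e3]
  simp only [smul_eq_mul, nsmul_eq_mul, Nat.cast_ofNat]
  ring

theorem Rad.sub {S : Set (E 2)} (hS : IsCompact S) (c : ℝ) :
    ∫ y in S, (‖y‖ ^ 2 - c) = (∫ y in S, ‖y‖ ^ 2) - vol S * c := by
  rw [integral_sub ((by fun_prop : Continuous fun y : E 2 => ‖y‖ ^ 2).continuousOn.integrableOn_compact hS)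
    (continuousOn_const.integrableOn_compact hS), setIntegral_const, smul_eq_mul]
  rfl

theorem moment_disc {S : Set (E 2)} (hS : IsCompact S) {r : ℝ} (hr : 0 ≤ r) (h : vol S = π * r ^ 2) :
    π * r ^ 4 / 2 ≤ ∫ y in S, ‖y‖ ^ 2 := by
  have hB : IsCompact (closedBall (0 : E 2) r) := isCompact_closedBall _ _
  have hc : Continuous fun y : E 2 => ‖y‖ ^ 2 - r ^ 2 := by fun_prop
  have e1 := integral_inter_add_sdiff (μ := volume) hB.measurableSet
    (hc.continuousOn.integrableOn_compact hS)
  have e2 := integral_inter_add_sdiff (μ := volume) hS.measurableSet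
    (hc.continuousOn.integrableOn_compact hB)
  have e3 : 0 ≤ ∫ y in S \ closedBall 0 r, (‖y‖ ^ 2 - r ^ 2) :=
    setIntegral_nonneg (hS.measurableSet.diff hB.measurableSet) fun y hy =>
      sub_nonneg.2 (pow_le_pow_left₀ hr (not_le.1 (mt mem_closedBall_zero_iff.2 hy.2)).le 2)
  have e4 : ∫ y in closedBall 0 r \ S, (‖y‖ ^ 2 - r ^ 2) ≤ 0 :=
    setIntegral_nonpos (hB.measurableSet.diff hS.measurableSet) fun y hy =>
      sub_nonpos.2 (pow_le_pow_left₀ (norm_nonneg _) (mem_closedBall_zero_iff.1 hy.1) 2)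
  rw [inter_comm, Rad.sub hB, Rad.ball hr, vol_closedBall _ hr, kappa_two] at e2
  rw [Rad.sub hS, h] at e1
  linarith

variable {K : Set (E 3)}

theorem Rad.even (h : Sym K) (t : ℝ) : rad K (-t) = rad K t := by
  have e : slice K (-t) = -slice K t := by
    ext y
    refine ⟨fun hy => ?_, fun hy => ?_⟩
    · simpa using slice_neg h hy
    · simpa using slice_neg h (Set.mem_neg.1 hy)
  rw [rad, rad, e, vol, vol, Measure.measure_neg]

theorem Rad.empty (h : InPos3 K) {t : ℝ} (ht : 1 < t) : slice K t = ∅ :=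
  eq_empty_of_forall_notMem fun _ hy => absurd (h.slab _ hy) (not_le.2 ht)

theorem Rad.zero (h : InPos3 K) {t : ℝ} (ht : 1 < t) : rad K t = 0 := by
  simp [rad, Rad.empty h ht, vol]

theorem InPos3.conc (h : InPos3 K) : ConcaveOn ℝ (Icc (-1) 1) (rad K) := by
  refine ⟨convex_Icc _ _, fun s hs t ht a b ha hb hab => ?_⟩
  have hK := h.body
  have hp : 0 ≤ √π := sqrt_nonneg _
  have hsq : √π ^ 2 = π := sq_sqrt pi_pos.le
  have hr : ∀ u, 0 ≤ rad K u := fun u => sqrt_nonneg _
  have e1 := bm (n := 2) ((slice_compact hK.1 s).smul a) ((slice_convex hK.2.1 s).smul a)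
    (h.slice_ne hs).smul_set ((slice_compact hK.1 t).smul b) ((slice_convex hK.2.1 t).smul b)
    (h.slice_ne ht).smul_set (α := a * (√π * rad K s)) (β := b * (√π * rad K t))
    (mul_nonneg ha (mul_nonneg hp (hr s))) (mul_nonneg hb (mul_nonneg hp (hr t)))
    (by rw [vol_smul _ ha, vol_slice, mul_pow, mul_pow, hsq])
    (by rw [vol_smul _ hb, vol_slice, mul_pow, mul_pow, hsq])
  have e2 : a • slice K s + b • slice K t ⊆ slice K (a * s + b * t) := by
    rintro _ ⟨_, ⟨y, hy, rfl⟩, _, ⟨y', hy', rfl⟩, rfl⟩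
    exact slice_comb hK.2.1 ha hb hab hy hy'
  have e3 := e1.trans (vol_mono e2 (slice_compact hK.1 _))
  simp only [smul_eq_mul]
  refine le_sqrt_of_sq_le ?_
  rw [le_div_iff₀ pi_pos]
  calc (a * rad K s + b * rad K t) ^ 2 * π = (a * (√π * rad K s) + b * (√π * rad K t)) ^ 2 := by
        rw [show a * (√π * rad K s) + b * (√π * rad K t) = √π * (a * rad K s + b * rad K t) by ring,
          mul_pow, hsq, mul_comm]
    _ ≤ _ := e3

theorem InPos3.prof (h : InPos3 K) : Prof (rad K) := by
  have hK := h.body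
  have hr : ∀ u, 0 ≤ rad K u := fun u => sqrt_nonneg _
  refine ⟨h.conc, Rad.even h.sym, fun t ht => ?_, ?_⟩
  · have e := vol_mono (h.disc ht) (slice_compact hK.1 t)
    rw [vol_closedBall _ (sqrt_nonneg _), kappa_two, vol_slice, mul_comm] at e
    exact (pow_le_pow_iff_left₀ (sqrt_nonneg _) (hr t) two_ne_zero).1
      (le_of_mul_le_mul_left e pi_pos)
  · obtain ⟨i1, e1⟩ := fubini hK.1 (f := fun x => x 2 ^ 2) (by fun_prop)
    obtain ⟨i2, e2⟩ := fubini hK.1 (f := fun x => x 0 ^ 2 + x 1 ^ 2) (by fun_prop)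
    have i3 := (fubini_vol hK.1).1
    have e3 : ∀ t, ∫ y in slice K t, pt y t 2 ^ 2 = π * (t ^ 2 * rad K t ^ 2) := fun t => by
      simp only [pt_two]
      rw [setIntegral_const, smul_eq_mul]
      change vol _ * _ = _
      rw [vol_slice]
      ring
    have e4 : ∀ t, π * rad K t ^ 4 / 2 ≤ ∫ y in slice K t, (pt y t 0 ^ 2 + pt y t 1 ^ 2) :=
      fun t => by
        simpa only [pt_zero, pt_one, ← norm2] using
          moment_disc (slice_compact hK.1 t) (hr t) (vol_slice K t)
    simp only [e3] at i1 e1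
    have i4 : Integrable fun t => π * rad K t ^ 4 / 2 := by
      refine i2.mono' ?_ (Eventually.of_forall fun t => ?_)
      · have e5 : (fun t => π * rad K t ^ 4 / 2) = fun t => vol (slice K t) ^ 2 / (2 * π) := by
          funext t
          rw [vol_slice]
          field_simp
        rw [e5]
        exact ((i3.aemeasurable.pow_const 2).div_const _).aestronglyMeasurable
      · rw [Real.norm_of_nonneg (by have := hr t; positivity)]
        exact e4 t
    have e5 := integral_mono i4 i2 e4
    have e6 := h.iso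
    rw [integral_even i4 (fun t => by rw [Rad.even h.sym]) (fun t ht => by simp [Rad.zero h ht]),
      intervalIntegral.integral_div, intervalIntegral.integral_const_mul] at e5
    rw [integral_even i1 (fun t => by rw [Rad.even h.sym, neg_sq])
      (fun t ht => by simp [Rad.zero h ht]), intervalIntegral.integral_const_mul] at e1
    refine le_of_mul_le_mul_left ?_ pi_pos
    linarith

theorem InPos3.vol_eq (h : InPos3 K) : vol K = 2 * π * ∫ t in (0 : ℝ)..1, rad K t ^ 2 := by
  obtain ⟨i1, e1⟩ := fubini_vol h.body.1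
  simp only [vol_slice] at i1 e1
  rw [e1, integral_even i1 (fun t => by rw [Rad.even h.sym]) (fun t ht => by simp [Rad.zero h ht]),
    intervalIntegral.integral_const_mul, mul_assoc]

end Vale.Agent.P237C
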