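import Vale.Agent.P237C.ProjA
import Vale.Agent.P237C.Rad
import Vale.Agent.P237C.Conc

/-! The slicing inequality for the shadow of the projection body.

PLAN.  g y t = hh (slice K t) y + hh (slice K (-t)) y ≥ 0, integrable in t (`hh_slice`), and
∫_0^1 g y ≤ hh K (pt y 0).  Q s = {q | ∀ y, ⟪rot q, y⟫ ≤ ∫_0^s g y} is closed, convex, contains 0.
rot '' Q s ⊆ hor '' projBody K for s ∈ [0,1] (`mem_of_support` for the compact convex set
hor '' projBody K, `exists_support` with pt y 0), so Q s is compact and, rot being a linear map of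
determinant one, vol (Q 1) ≤ vol (hor '' projBody K) ≤ hh (projBody K) (single 2 1) (`vol_le_hh`).
For 0 ≤ a ≤ b ≤ 1, A = slice K b: Q a + (2 (b - a)) • (A + -A) ⊆ Q b, because for u, v ∈ A and |t| ≤ b
(t = λ b + (1-λ)(-b)) the points λ u - (1-λ) v, λ v - (1-λ) u lie in slice K t (`slice_comb`,
`slice_neg`) and differ by u - v, so `width_le` gives 2 ⟪rot (u - v), y⟫ ≤ g y t on [a, b].
`bm` twice in the plane: φ s = √(vol (Q s)) satisfies φ a + (b - a) * (4 √π rad K b) ≤ φ b.
`riemann` with ψ = 4 √π rad K. -/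

namespace Vale.Agent.P237C

open Vale.Agent.P237B MeasureTheory Metric Set Real Filter Topology
open scoped Pointwise RealInnerProductSpace

namespace Proj

variable {K : Set (E 3)}

/-- The rotation as a linear map. -/
def rotL : E 2 →ₗ[ℝ] E 2 where
  toFun := rot
  map_add' x y := ext2 (by simp [add_comm]) (by simp)
  map_smul' c x := ext2 (by simp) (by simp)

theorem vol_rot (A : Set (E 2)) : vol (rotL '' A) = vol A := by
  have e : rotL ∘ₗ rotL = (-1 : ℝ) • LinearMap.id :=
    LinearMap.ext fun x => ext2 (by simp [rotL]) (by simp [rotL])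
  have h1 : LinearMap.det rotL ^ 2 = 1 := by
    rw [sq, ← LinearMap.det_comp, e, LinearMap.det_smul, LinearMap.det_id,
      finrank_euclideanSpace_fin]
    norm_num
  have h2 : |LinearMap.det rotL| = 1 := by
    rcases sq_eq_one_iff.1 h1 with h | h <;> simp [h]
  rw [vol_lin, h2, one_mul]

theorem width (h : InPos3 K) {b t : ℝ} (ht : t ∈ Icc (-b) b) {u v : E 2} (hu : u ∈ slice K b)
    (hv : v ∈ slice K b) (y : E 2) : ⟪rot (u - v), y⟫ ≤ hh (slice K t) y := by
  obtain ⟨c, d, hc, hd, hcd, rfl⟩ := (Convex.mem_Icc (ht.1.trans ht.2)).1 ht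
  have h1 := slice_comb h.body.2.1 hc hd hcd (slice_neg h.sym hv) hu
  have h2 := slice_comb h.body.2.1 hc hd hcd (slice_neg h.sym hu) hv
  have h3 := width_le (slice_compact h.body.1 _) (slice_convex h.body.2.1 _) h1 h2 y
  have e : c • -v + d • u - (c • -u + d • v) = (c + d) • (u - v) := by module
  rwa [e, hcd, one_smul] at h3

/-- The part of the shadow that comes from the heights at most `s`. -/
def W (K : Set (E 3)) (s : ℝ) : Set (E 2) :=
  {q | ∀ y, ⟪q, y⟫ ≤ ∫ t in (-s)..s, hh (slice K t) y}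

theorem W_closed (s : ℝ) : IsClosed (W K s) := by
  simp only [W, ofPred_forall]
  exact isClosed_iInter fun y => isClosed_le (by fun_prop) continuous_const

theorem W_convex (s : ℝ) : Convex ℝ (W K s) := fun p hp q hq a b ha hb hab y => by
  rw [inner_add_left, real_inner_smul_left, real_inner_smul_left]
  have h1 := add_le_add (mul_le_mul_of_nonneg_left (hp y) ha) (mul_le_mul_of_nonneg_left (hq y) hb)
  rwa [← add_mul, hab, one_mul] at h1

theorem W_zero {s : ℝ} (hs : 0 ≤ s) : (0 : E 2) ∈ W K s := fun y => by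
  rw [inner_zero_left]
  exact intervalIntegral.integral_nonneg (by linarith) fun t _ => hh_nonneg _ _

theorem W_sub (h : InPos3 K) {s : ℝ} (hs : 0 ≤ s) : W K s ⊆ hor '' projBody K := fun q hq => by
  have hb := body_proj h.body
  refine mem_of_support (hb.1.image continuous_hor).isClosed ?_ fun v ε hε => ?_
  · rintro _ ⟨x, hx, rfl⟩ _ ⟨x', hx', rfl⟩ a b ha hb' hab
    exact ⟨_, hb.2.1 hx hx' ha hb' hab, ext2 rfl rfl⟩
  · obtain ⟨z, hz, e⟩ := exists_support h.body (pt v 0)
    obtain ⟨h1, h2⟩ := hh_slice h.body.1 h.body.2.1 v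
    refine ⟨_, ⟨z, hz, rfl⟩, (hq v).trans ?_⟩
    have h3 : ⟪hor z, v⟫ = ⟪z, pt v 0⟫ := by
      rw [inner2, inner3]
      simp
    rw [h3, e, h2, intervalIntegral.integral_of_le (by linarith)]
    exact (setIntegral_le_integral h1 (Eventually.of_forall fun t => hh_nonneg _ _)).trans
      (le_add_of_nonneg_right hε.le)

theorem W_compact (h : InPos3 K) {s : ℝ} (hs : 0 ≤ s) : IsCompact (W K s) :=
  ((body_proj h.body).1.image continuous_hor).of_isClosed_subset (W_closed s) (W_sub h hs)

theorem W_add (h : InPos3 K) {a b : ℝ} (ha : 0 ≤ a) (hab : a ≤ b) :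
    W K a + (2 * (b - a)) • rotL '' (slice K b + -slice K b) ⊆ W K b := by
  rintro _ ⟨q, hq, _, ⟨_, ⟨_, ⟨u, hu, v, hv, rfl⟩, rfl⟩, rfl⟩, rfl⟩ y
  have hi : ∀ c d, IntervalIntegrable (fun t => hh (slice K t) y) volume c d := fun c d =>
    (hh_slice h.body.1 h.body.2.1 y).1.intervalIntegrable
  have hw := fun t ht => width h (t := t) ht hu (mem_neg.1 hv) y
  rw [sub_neg_eq_add] at hw
  have h1 := intervalIntegral.integral_mono_on (neg_le_neg hab) intervalIntegrable_const (hi _ _)
    fun t ht => hw t ⟨ht.1, by linarith [ht.2]⟩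
  have h2 := intervalIntegral.integral_mono_on hab intervalIntegrable_const (hi _ _)
    fun t ht => hw t ⟨by linarith [ht.1], ht.2⟩
  rw [intervalIntegral.integral_const, smul_eq_mul] at h1 h2
  have h3 := intervalIntegral.integral_add_adjacent_intervals (hi (-b) (-a)) (hi (-a) a)
  have h4 := intervalIntegral.integral_add_adjacent_intervals (hi (-b) a) (hi a b)
  have h5 := hq y
  change ⟪q + (2 * (b - a)) • rot (u + v), y⟫ ≤ _
  rw [inner_add_left, real_inner_smul_left]
  linarith

theorem step (h : InPos3 K) {a b : ℝ} (ha : 0 ≤ a) (hab : a ≤ b) (hb : b ≤ 1) :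
    √(vol (W K a)) + (b - a) * (4 * √π * rad K b) ≤ √(vol (W K b)) := by
  have hA := slice_compact h.body.1 b
  have hc := slice_convex h.body.2.1 b
  have hn := h.slice_ne (t := b) ⟨by linarith, hb⟩
  have hr : 0 ≤ √π * rad K b := mul_nonneg (sqrt_nonneg _) (sqrt_nonneg _)
  have h1 : (√π * rad K b) ^ 2 ≤ vol (slice K b) := by
    rw [vol_slice, mul_pow, sq_sqrt pi_pos.le]
  have h2 : (√π * rad K b) ^ 2 ≤ vol (-slice K b) := by
    rwa [vol, Measure.measure_neg]
  have h3 := bm hA hc hn hA.neg hc.neg hn.neg hr hr h1 h2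
  have hd : 0 ≤ b - a := sub_nonneg.2 hab
  have h4 : ((b - a) * (4 * √π * rad K b)) ^ 2 ≤
      vol ((2 * (b - a)) • rotL '' (slice K b + -slice K b)) := by
    rw [vol_smul _ (by positivity), vol_rot]
    refine le_trans (le_of_eq ?_) (mul_le_mul_of_nonneg_left h3 (by positivity))
    ring
  have h5 := bm (W_compact h ha) (W_convex a) ⟨0, W_zero ha⟩
    (((hA.add hA.neg).image rotL.continuous_of_finiteDimensional).smul _)
    (((hc.add hc.neg).linear_image rotL).smul _) (((hn.add hn.neg).image _).smul_set)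
    (sqrt_nonneg (vol (W K a))) (mul_nonneg hd (by linarith)) (sq_sqrt (vol_nonneg _)).le h4
  exact le_sqrt_of_sq_le (h5.trans (vol_mono (W_add h ha hab) (W_compact h (ha.trans hab))))

end Proj

theorem InPos3.proj {K : Set (E 3)} (h : InPos3 K) :
    16 * π * (∫ t in (0 : ℝ)..1, rad K t) ^ 2 ≤ hh (projBody K) (EuclideanSpace.single 2 1) := by
  have hπ : 0 ≤ 4 * √π := by positivity
  have h1 := riemann (φ := fun s => √(vol (Proj.W K s))) (ψ := fun t => 4 * √π * rad K t)
    (fun s hs t ht hst => mul_le_mul_of_nonneg_left (h.prof.anti hs ht hst) hπ)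
    fun a b ha hab hb => Proj.step h ha hab hb
  rw [intervalIntegral.integral_const_mul] at h1
  have h2 : 0 ≤ ∫ t in (0 : ℝ)..1, rad K t :=
    intervalIntegral.integral_nonneg zero_le_one fun t _ => sqrt_nonneg _
  have h3 : 4 * √π * ∫ t in (0 : ℝ)..1, rad K t ≤ √(vol (Proj.W K 1)) := by
    linarith [sqrt_nonneg (vol (Proj.W K 0))]
  have h4 := pow_le_pow_left₀ (mul_nonneg hπ h2) h3 2
  rw [sq_sqrt (vol_nonneg _), mul_pow, mul_pow, sq_sqrt pi_pos.le] at h4
  have h5 := vol_mono (Proj.W_sub h zero_le_one) ((body_proj h.body).1.image continuous_hor)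
  have h6 := vol_le_hh (body_proj h.body).1
  linarith

end Vale.Agent.P237C
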