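import Vale.Agent.P237C.CR
import Vale.Agent.P237C.Hom
import Vale.Agent.P237C.Min
import Vale.Agent.P237C.Proj
import Vale.Agent.P237C.OneD

/-! The inequality in dimension three. -/

namespace Vale.Agent.P237C

open Vale.Agent.P237B MeasureTheory Metric Set Real Filter Topology
open scoped Pointwise RealInnerProductSpace

theorem root {x : ℝ} (hx : 0 < x) : ∃ y : ℝ, 0 < y ∧ y ^ 3 = x :=
  ⟨x ^ (((3 : ℕ) : ℝ)⁻¹), Real.rpow_pos_of_pos hx _, Real.rpow_inv_natCast_pow hx.le (by norm_num)⟩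

theorem key_pos {K : Set (E 3)} (h : InPos3 K) (hR : R K ≤ R (projBody K)) :
    3 * π ^ 2 / 4 ≤ R K ∧ (R K ≤ 3 * π ^ 2 / 4 → K = closedBall 0 1) := by
  have hK := h.body
  have hL := body_proj hK
  obtain ⟨α, hα, hα'⟩ := root hK.vol_pos
  obtain ⟨β, hβ, hβ'⟩ := root (body_proj hL).vol_pos
  obtain ⟨h1, h2⟩ := cr_eq hK hR hα hβ hα' hβ'
  have h3 := homothetic (by norm_num) hK h.sym (body_proj hL) (sym_proj hL) hα hβ hα' hβ' h2
  obtain ⟨z, hz, e⟩ := exists_support hL (EuclideanSpace.single 2 1)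
  obtain ⟨x, hx, rfl⟩ := h3 hz
  have h4 : hh (projBody K) (EuclideanSpace.single 2 1) ≤ β / α := by
    rw [← e, inner3]
    simpa using mul_le_of_le_one_right (div_pos hβ hα).le (h.slab x hx)
  have h5 : β / α = R K * vol K := by
    rw [R, ← h1, ← hα', show 3 - 1 = 2 from rfl]
    field_simp
  have h6 := h.proj.trans (h4.trans h5.le)
  obtain ⟨h7, h8⟩ := h.prof.main
  have hv := hK.vol_pos
  rw [h.vol_eq] at h6 hv
  set I := ∫ t in (0 : ℝ)..1, rad K t
  set J := ∫ t in (0 : ℝ)..1, rad K t ^ 2 with hJ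
  have hJ0 : 0 < J := by
    by_contra hc
    have : 2 * π * J ≤ 0 := mul_nonpos_of_nonneg_of_nonpos (by positivity) (not_lt.1 hc)
    linarith
  have h9 : 8 * I ^ 2 ≤ R K * J := le_of_mul_le_mul_left (by linarith) (show 0 < 2 * π by positivity)
  refine ⟨le_of_mul_le_mul_right (by linarith) hJ0, fun h10 => ?_⟩
  have h11 := h8 (by nlinarith [mul_le_mul_of_nonneg_right h10 hJ0.le])
  refine (EqA.full hK isClosed_closedBall h.ball ?_).antisymm h.ball
  rw [h.vol_eq, vol_closedBall _ zero_le_one, kappa_three, ← hJ]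
  nlinarith [pi_pos]

theorem key {K : Set (E 3)} (hK : IsBody K) (hs : Sym K) (hR : R K ≤ R (projBody K)) :
    3 * π ^ 2 / 4 ≤ R K ∧
      (R K ≤ 3 * π ^ 2 / 4 → ∃ T : E 3 ≃ₗ[ℝ] E 3, T '' K = closedBall 0 1) := by
  obtain ⟨T, hT⟩ := exists_pos hK hs
  obtain ⟨S, hS⟩ := projBody_lin hK T
  have h1 := key_pos hT (by rwa [hS, R_lin hK, R_lin (body_proj hK)])
  rw [R_lin hK] at h1
  exact ⟨h1.1, fun h => ⟨T, h1.2 h⟩⟩

theorem lower_sym {K : Set (E 3)} (hK : IsBody K) (hs : Sym K) : 3 * π ^ 2 / 4 ≤ R K := by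
  obtain ⟨K₀, h0, h1, h2⟩ := exists_min
  exact (key h0 h1 (h2 _ (body_proj h0) (sym_proj h0))).1.trans (h2 K hK hs)

theorem lower {K : Set (E 3)} (hK : IsBody K) : 3 * π ^ 2 / 4 ≤ R K :=
  (lower_sym (body_proj hK) (sym_proj hK)).trans (R_proj_le hK)

theorem projBody_closedBall {d : ℝ} (hd : 0 < d) :
    projBody (closedBall (0 : E 3) d) = closedBall 0 (d ^ 2 * π) := by
  ext x
  rw [mem_projBody, mem_closedBall_zero_iff]
  simp only [hh_ball (0 : E 3) hd, show 3 - 1 = 2 from rfl, kappa_two]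
  constructor
  · intro h
    rcases eq_or_ne x 0 with rfl | hx
    · rw [norm_zero]
      positivity
    · have := h x
      rw [real_inner_self_eq_norm_sq, sq] at this
      exact le_of_mul_le_mul_right this (norm_pos_iff.2 hx)
  · exact fun h a => (real_inner_le_norm x a).trans (by gcongr)

theorem equality {K : Set (E 3)} (hK : IsBody K) (h : R K ≤ 3 * π ^ 2 / 4) : IsEllipsoid K := by
  have hL := body_proj hK
  have h1 := (R_proj_le hK).trans h
  obtain ⟨S, hS⟩ := (key hL (sym_proj hK) (h1.trans (lower (body_proj hL)))).2 h1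
  obtain ⟨T, hT⟩ := exists_adjoint S.symm
  set d := |LinearMap.det (T : E 3 →ₗ[ℝ] E 3)| with hd
  have hd0 : 0 < d := abs_pos.2 (Cov.det_ne T)
  have h2 : projBody (T '' K) = closedBall 0 d := by
    ext x
    rw [mem_projBody_lin hK, hT, ← map_smul, ← mem_preimage, ← LinearEquiv.image_eq_preimage_symm,
      hS, mem_closedBall_zero_iff, mem_closedBall_zero_iff, norm_smul, ← hd,
      Real.norm_of_nonneg (inv_pos.2 hd0).le, inv_mul_le_iff₀ hd0, mul_one]
  have hK' := hK.lin T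
  obtain ⟨α, hα, hα'⟩ := root hK'.vol_pos
  obtain ⟨β, hβ, hβ'⟩ := root (body_proj (body_proj hK')).vol_pos
  have h3 := (cr_eq hK' (by rw [R_lin hK]; exact h.trans (lower (body_proj hK'))) hα hβ hα' hβ').2
  rw [h2, projBody_closedBall hd0] at h3 hβ'
  obtain ⟨c, ρ, hρ, e⟩ := ball_of_bm_eq hK' (by positivity) hα hβ hα' hβ' h3
  exact IsEllipsoid.of_lin T hρ e

theorem petty3 {K : Set (E 3)} (hK : IsBody K) :
    kappa (3 - 1) ^ 3 * kappa 3 ^ 2 * vol K ^ (3 - 1) ≤ kappa 3 ^ 3 * vol (projBody K) ∧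
      (kappa 3 ^ 3 * vol (projBody K) ≤ kappa (3 - 1) ^ 3 * kappa 3 ^ 2 * vol K ^ (3 - 1) →
        IsEllipsoid K) := by
  have hv : 0 < vol K ^ (3 - 1) := pow_pos hK.vol_pos _
  have e : kappa (3 - 1) ^ 3 * kappa 3 ^ 2 = kappa 3 ^ 3 * (3 * π ^ 2 / 4) := by
    rw [show 3 - 1 = 2 from rfl, kappa_two, kappa_three]
    ring
  have hk : 0 < kappa 3 ^ 3 := pow_pos (kappa_pos 3) 3
  rw [e, mul_assoc]
  refine ⟨mul_le_mul_of_nonneg_left ((le_div_iff₀ hv).1 (lower hK)) hk.le, fun h => ?_⟩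
  exact equality hK ((div_le_iff₀ hv).2 (le_of_mul_le_mul_left h hk))

end Vale.Agent.P237C
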