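import Vale.Agent.P237C.Key
import Vale.Agent.P237B.Main

/-! The projection-volume inequality in every dimension at least three. -/

namespace Vale.Agent.P237C

open Vale.Agent.P237B

theorem petty_all {n : ℕ} [NeZero n] (hn : 3 ≤ n) {K : Set (E n)} (hK : IsBody K) :
    kappa (n - 1) ^ n * kappa n ^ 2 * vol K ^ (n - 1) ≤ kappa n ^ n * vol (projBody K) ∧
      (kappa n ^ n * vol (projBody K) ≤ kappa (n - 1) ^ n * kappa n ^ 2 * vol K ^ (n - 1) →
        IsEllipsoid K) := by
  rcases hn.eq_or_lt with rfl | h
  · exact petty3 hK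
  · exact petty h hK

end Vale.Agent.P237C
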