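import Vale.Agent.P237C.Fub

/-! Shadows in the plane and in space.

PLAN.  width_le: y = 0 is trivial.  Otherwise the projection of A onto V = (ℝ ∙ y)ᗮ (dimension one,
spanned by rot y, ‖rot y‖ = ‖y‖) is convex and contains the segment between the projections of a and
b, which differ by (⟪a - b, rot y⟫ / ‖y‖^2) • rot y; `volume_eq_of_finrank_eq_one` as in P237B/Seg
computes the volume of a segment.  ⟪rot (a-b), y⟫ = -⟪a - b, rot y⟫.
vol_le_hh: y ↦ pt y 0 is a linear isometry equivalence from E 2 onto (ℝ ∙ single 2 1)ᗮ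
(`LinearIsometryEquiv.measurePreserving`, `Seg.mem_proj`); or use Fubini.
hh_slice: slice (K + segment 0 (pt y 0)) t = slice K t + segment 0 y, `vol_add_seg` in dimensions 3 and
2, `fubini_vol` twice, `integral_sub`. -/

namespace Vale.Agent.P237C

open Vale.Agent.P237B MeasureTheory Metric Set Real Filter Topology
open scoped Pointwise RealInnerProductSpace

namespace ProjA

/-- The horizontal plane as an isometric copy of `E 2`. -/
noncomputable def iota : E 2 →ₗᵢ[ℝ] (ℝ ∙ (EuclideanSpace.single 2 1 : E 3))ᗮ where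
  toFun y := ⟨pt y 0, by
    rw [Submodule.mem_orthogonal_singleton_iff_inner_right, inner3]
    simp⟩
  map_add' y y' := Subtype.ext (by simpa using pt_add y y' 0 0)
  map_smul' c y := Subtype.ext (by simpa using pt_smul c y 0)
  norm_map' y := by
    change ‖pt y 0‖ = ‖y‖
    rw [← sq_eq_sq₀ (norm_nonneg _) (norm_nonneg _), norm_pt]
    ring

theorem iota_surj : Function.Surjective iota := by
  rintro ⟨x, hx⟩
  refine ⟨hor x, Subtype.ext ?_⟩
  rw [Submodule.mem_orthogonal_singleton_iff_inner_right, inner3] at hx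
  have h2 : x 2 = 0 := by simpa using hx
  change pt (hor x) 0 = x
  rw [← h2, pt_hor]

/-- The horizontal plane as an isometric copy of `E 2`, as an equivalence. -/
noncomputable def phi : E 2 ≃ₗᵢ[ℝ] (ℝ ∙ (EuclideanSpace.single 2 1 : E 3))ᗮ :=
  LinearIsometryEquiv.ofSurjective iota iota_surj

theorem phi_apply (y : E 2) : (phi y : E 3) = pt y 0 := rfl

theorem slice_add (K : Set (E 3)) (y : E 2) (t : ℝ) :
    slice (K + segment ℝ 0 (pt y 0)) t = slice K t + segment ℝ 0 y := by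
  ext z
  constructor
  · rintro ⟨k, hk, _, ⟨p, q, hp, hq, hpq, rfl⟩, e⟩
    have e0 := congrArg (fun x : E 3 => x 0) e
    have e1 := congrArg (fun x : E 3 => x 1) e
    have e2 := congrArg (fun x : E 3 => x 2) e
    simp only [smul_zero, zero_add, PiLp.add_apply, PiLp.smul_apply, smul_eq_mul, pt_zero, pt_one,
      pt_two, mul_zero, add_zero] at e0 e1 e2
    refine ⟨hor k, ?_, _, ⟨p, q, hp, hq, hpq, rfl⟩, ext2 ?_ ?_⟩
    · change pt (hor k) t ∈ K
      rwa [← e2, pt_hor]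
    · simpa using e0
    · simpa using e1
  · rintro ⟨w, hw, _, ⟨p, q, hp, hq, hpq, rfl⟩, rfl⟩
    refine ⟨pt w t, hw, _, ⟨p, q, hp, hq, hpq, rfl⟩, ext3 ?_ ?_ ?_⟩ <;> simp

end ProjA

theorem width_le {A : Set (E 2)} (hA : IsCompact A) (hc : Convex ℝ A) {a b : E 2} (ha : a ∈ A)
    (hb : b ∈ A) (y : E 2) : ⟪rot (a - b), y⟫ ≤ hh A y := by
  rcases eq_or_ne y 0 with rfl | hy
  · simp [hh]
  have hn : 0 < ‖y‖ := norm_pos_iff.2 hy
  have hn2 : 0 < y 0 ^ 2 + y 1 ^ 2 := by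
    rw [← norm2]
    positivity
  have hr : ‖rot y‖ = ‖y‖ := by
    rw [← sq_eq_sq₀ (norm_nonneg _) (norm_nonneg _), norm2, norm2, rot_zero, rot_one]
    ring
  let v : (ℝ ∙ y)ᗮ := ⟨rot y, by
    rw [Submodule.mem_orthogonal_singleton_iff_inner_right, inner2, rot_zero, rot_one]
    ring⟩
  have hv : v ≠ 0 := fun h => by
    have h1 : ‖v‖ = ‖rot y‖ := rfl
    rw [h, norm_zero, hr] at h1
    exact hn.ne h1
  have hfr : Module.finrank ℝ (ℝ ∙ y)ᗮ = 1 := by
    have : Fact (Module.finrank ℝ (E 2) = 1 + 1) := ⟨by simp⟩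
    exact Submodule.finrank_orthogonal_span_singleton hy
  have hP : IsCompact ((ℝ ∙ y)ᗮ.orthogonalProjectionOnto '' A) :=
    hA.image (ContinuousLinearMap.continuous _)
  have hf : Measurable fun t : ℝ => t • v := (continuous_id.smul continuous_const).measurable
  have hS : Convex ℝ ((fun t : ℝ => t • v) ⁻¹' ((ℝ ∙ y)ᗮ.orthogonalProjectionOnto '' A)) :=
    (hc.linear_image ((ℝ ∙ y)ᗮ.orthogonalProjectionOnto : E 2 →ₗ[ℝ] (ℝ ∙ y)ᗮ)).linear_preimage
      (LinearMap.toSpanSingleton ℝ _ v)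
  have hm : ∀ x ∈ A, ⟪x, rot y⟫ / ‖y‖ ^ 2 ∈
      (fun t : ℝ => t • v) ⁻¹' ((ℝ ∙ y)ᗮ.orthogonalProjectionOnto '' A) := by
    intro x hx
    rw [mem_preimage, Seg.mem_proj]
    refine ⟨⟪x, y⟫ / ‖y‖ ^ 2, ?_⟩
    have : (⟪x, y⟫ / ‖y‖ ^ 2) • y + (((⟪x, rot y⟫ / ‖y‖ ^ 2) • v : (ℝ ∙ y)ᗮ) : E 2) = x := by
      change (⟪x, y⟫ / ‖y‖ ^ 2) • y + (⟪x, rot y⟫ / ‖y‖ ^ 2) • rot y = x
      rw [inner2, inner2, norm2]
      refine ext2 ?_ ?_ <;>
      · simp only [PiLp.add_apply, PiLp.smul_apply, smul_eq_mul, rot_zero, rot_one]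
        field_simp
        ring
    rwa [this]
  have hI := hS.ordConnected.out (hm a ha) (hm b hb)
  have hvol := measure_mono (μ := (volume : Measure ℝ)) hI
  rw [Real.volume_Icc] at hvol
  have e : volume ((ℝ ∙ y)ᗮ.orthogonalProjectionOnto '' A) =
      ‖y‖ₑ * volume ((fun t : ℝ => t • v) ⁻¹' ((ℝ ∙ y)ᗮ.orthogonalProjectionOnto '' A)) := by
    conv_lhs => rw [volume_eq_of_finrank_eq_one hfr hv, Measure.smul_apply,
      Measure.map_apply hf hP.measurableSet, smul_eq_mul]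
    congr 1
    rw [← ofReal_norm, ← ofReal_norm, ← hr]
    rfl
  have h1 : ‖y‖ₑ * ENNReal.ofReal (⟪b, rot y⟫ / ‖y‖ ^ 2 - ⟪a, rot y⟫ / ‖y‖ ^ 2) ≤
      volume ((ℝ ∙ y)ᗮ.orthogonalProjectionOnto '' A) := by
    rw [e]
    gcongr
  rw [← ofReal_norm, ← ENNReal.ofReal_mul hn.le,
    ENNReal.ofReal_le_iff_le_toReal hP.measure_lt_top.ne] at h1
  have h2 := mul_le_mul_of_nonneg_left h1 hn.le
  refine le_trans (le_of_eq ?_) h2
  have h3 : ⟪rot (a - b), y⟫ = ⟪b, rot y⟫ - ⟪a, rot y⟫ := by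
    simp only [inner2, rot_zero, rot_one, PiLp.sub_apply]
    ring
  rw [h3]
  field_simp

theorem vol_le_hh {L : Set (E 3)} (hL : IsCompact L) :
    vol (hor '' L) ≤ hh L (EuclideanSpace.single 2 1) := by
  have hP : IsCompact ((ℝ ∙ (EuclideanSpace.single 2 1 : E 3))ᗮ.orthogonalProjectionOnto '' L) :=
    hL.image (ContinuousLinearMap.continuous _)
  have h1 := ProjA.phi.measurePreserving.measure_preimage hP.measurableSet.nullMeasurableSet
  have h2 : hor '' L ⊆ ProjA.phi ⁻¹'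
      ((ℝ ∙ (EuclideanSpace.single 2 1 : E 3))ᗮ.orthogonalProjectionOnto '' L) := by
    rintro _ ⟨x, hx, rfl⟩
    rw [mem_preimage, Seg.mem_proj]
    refine ⟨x 2, ?_⟩
    have : x 2 • (EuclideanSpace.single 2 1 : E 3) + (ProjA.phi (hor x) : E 3) = x := by
      rw [ProjA.phi_apply]
      refine ext3 ?_ ?_ ?_ <;> simp
    rwa [this]
  unfold hh shadow vol
  rw [EuclideanSpace.norm_single, norm_one, one_mul, ← h1]
  refine ENNReal.toReal_mono ?_ (measure_mono h2)
  rw [h1]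
  exact hP.measure_lt_top.ne

theorem hh_slice {K : Set (E 3)} (hK : IsCompact K) (hc : Convex ℝ K) (y : E 2) :
    Integrable (fun t => hh (slice K t) y) ∧ hh K (pt y 0) = ∫ t, hh (slice K t) y := by
  have h1 := fubini_vol hK
  have h2 := fubini_vol (isCompact_add_seg hK 0 (pt y 0))
  have e : ∀ t, hh (slice K t) y = vol (slice (K + segment ℝ 0 (pt y 0)) t) - vol (slice K t) := by
    intro t
    rw [ProjA.slice_add, vol_add_seg (slice_compact hK t) (slice_convex hc t)]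
    ring
  simp only [e]
  refine ⟨h2.1.sub h1.1, ?_⟩
  rw [integral_sub h2.1 h1.1, ← h1.2, ← h2.2, vol_add_seg hK hc]
  ring

end Vale.Agent.P237C
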