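import Vale.Agent.P237C.Conc

/-! Lower bounds for the excess volume in terms of one point of the profile.

PLAN.  e τ = τ^2 + r τ^2 - 1 ≥ 0 on [0,1], ∫_0^1 e = ∫ r^2 - 2/3.  Let y = r t, T^2 = t^2 + y^2 - 1, T ≥ 0.
The tangent points from (t, y) to the unit circle are (c₁, s₁) = ((t + y T), (y - t T)) / (1 + T^2) and
(c₂, s₂) = ((t - y T), (y + t T)) / (1 + T^2): c^2 + s^2 = 1, s₁ > 0 (y^2 - t^2 T^2 = (1 - t^2)(1 + T^2)),
c₁ - t = s₁ T, t - c₂ = s₂ T, y = s₁ + c₁ T = s₂ - c₂ T.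
right: r c₁ ≥ √(1 - c₁^2) = s₁; for τ ∈ [t, c₁], τ = c₁ - s₁ σ with σ ∈ [0, T], concavity gives
r τ ≥ s₁ + c₁ σ ≥ 0, so e τ ≥ σ^2 = ((c₁ - τ) / s₁)^2 and ∫_t^1 e ≥ ∫_t^c₁ ≥ s₁ T^3 / 3.
left (y ≤ 1, then c₂ ≥ 0 since t^2 - y^2 T^2 = (t^2 + y^2)(1 - y^2)): the same on [c₂, t], the chord
lies between s₂ and y, so it is nonnegative: ∫_0^t e ≥ s₂ T^3 / 3.
left' : r τ ≥ y on [0, t] (`Prof.anti`), ∫_0^t e ≥ t^3/3 + (y^2 - 1) t. -/

namespace Vale.Agent.P237C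

open Vale.Agent.P237B MeasureTheory Metric Set Real Filter Topology
open scoped Pointwise RealInnerProductSpace

variable {r : ℝ → ℝ}

namespace Tent

theorem chord (h : Prof r) {t c s S l : ℝ} (ht : t ∈ Icc (-1 : ℝ) 1) (hcs : c ^ 2 + s ^ 2 = 1)
    (hs : 0 ≤ s) (h1 : t = c - s * S) (h2 : r t = s + c * S) (hl0 : 0 ≤ l) (hl1 : l ≤ 1) :
    (l * S) ^ 2 ≤ (c - s * (l * S)) ^ 2 + r (c - s * (l * S)) ^ 2 - 1 := by
  have hc : c ∈ Icc (-1 : ℝ) 1 := abs_le.1 ((sq_le_one_iff_abs_le_one c).1 (by nlinarith))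
  have e1 := h.conc.2 ht hc hl0 (sub_nonneg.2 hl1) (by ring)
  have e2 : s ≤ r c := by
    have := h.ge c hc
    rwa [show 1 - c ^ 2 = s ^ 2 by linarith, sqrt_sq hs] at this
  have e3 : l • t + (1 - l) • c = c - s * (l * S) := by
    rw [h1]
    simp only [smul_eq_mul]
    ring
  rw [e3] at e1
  simp only [smul_eq_mul] at e1
  have e4 := h.nonneg ht
  have e5 : s + c * (l * S) = l * r t + (1 - l) * s := by
    rw [h2]
    ring
  have e6 : 0 ≤ s + c * (l * S) := by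
    rw [e5]
    exact add_nonneg (mul_nonneg hl0 e4) (mul_nonneg (sub_nonneg.2 hl1) hs)
  have e7 : s + c * (l * S) ≤ r (c - s * (l * S)) := by
    rw [e5]
    nlinarith [mul_le_mul_of_nonneg_left e2 (sub_nonneg.2 hl1)]
  have e8 := pow_le_pow_left₀ e6 e7 2
  have e9 : (c - s * (l * S)) ^ 2 + (s + c * (l * S)) ^ 2 = (c ^ 2 + s ^ 2) * (1 + (l * S) ^ 2) := by
    ring
  rw [hcs] at e9
  linarith

theorem facts (h : Prof r) {t S : ℝ} (ht : t ∈ Ico (0 : ℝ) 1) (hS : S ^ 2 = t ^ 2 + r t ^ 2 - 1) :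
    ((t + r t * S) / (1 + S ^ 2)) ^ 2 + ((r t - t * S) / (1 + S ^ 2)) ^ 2 = 1 ∧
      0 < (r t - t * S) / (1 + S ^ 2) ∧
      t = (t + r t * S) / (1 + S ^ 2) - (r t - t * S) / (1 + S ^ 2) * S ∧
      r t = (r t - t * S) / (1 + S ^ 2) + (t + r t * S) / (1 + S ^ 2) * S := by
  have hD : 0 < 1 + S ^ 2 := by positivity
  have hy := h.nonneg (t := t) ⟨by linarith [ht.1], ht.2.le⟩
  refine ⟨?_, div_pos ?_ hD, ?_, ?_⟩
  · field_simp
    linear_combination (-1 - S ^ 2) * hS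
  · have e1 : 0 < (1 - t ^ 2) * (1 + S ^ 2) := mul_pos (by nlinarith [ht.1, ht.2]) hD
    have e2 : (t * S) ^ 2 < r t ^ 2 := by nlinarith
    linarith [(abs_lt.1 (abs_lt_of_sq_lt_sq e2 hy)).2]
  · field_simp
    ring
  · field_simp
    ring

theorem ie (h : Prof r) {a b : ℝ} (ha : a ∈ Icc (0 : ℝ) 1) (hb : b ∈ Icc (0 : ℝ) 1) :
    IntervalIntegrable (fun τ => τ ^ 2 + r τ ^ 2 - 1) volume a b := by
  have e1 := h.ii 0 2 ha hb
  simp only [pow_zero, one_mul] at e1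
  exact (((continuous_pow 2).intervalIntegrable a b).add e1).sub intervalIntegrable_const

theorem e_nn (h : Prof r) {a b : ℝ} (ha : 0 ≤ a) (hab : a ≤ b) (hb : b ≤ 1) :
    0 ≤ ∫ τ in a..b, (τ ^ 2 + r τ ^ 2 - 1) :=
  intervalIntegral.integral_nonneg hab fun _ hu =>
    h.e_nonneg ⟨by linarith [hu.1], hu.2.trans hb⟩

theorem isq (a b c s : ℝ) :
    ∫ τ in a..b, ((c - τ) / s) ^ 2 = ((c - a) ^ 3 - (c - b) ^ 3) / (3 * s ^ 2) := by
  simp only [div_pow]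
  rw [intervalIntegral.integral_div, intervalIntegral.integral_comp_sub_left (fun x => x ^ 2) c,
    integral_pow, div_div]
  norm_num

theorem right (h : Prof r) {t T : ℝ} (ht : t ∈ Ico (0 : ℝ) 1) (hT : 0 ≤ T)
    (hT2 : T ^ 2 = t ^ 2 + r t ^ 2 - 1) :
    (r t - t * T) / (1 + T ^ 2) * T ^ 3 / 3 ≤ ∫ τ in t..1, (τ ^ 2 + r τ ^ 2 - 1) := by
  obtain ⟨h1, h2, h3, h4⟩ := facts h ht hT2
  generalize (t + r t * T) / (1 + T ^ 2) = c at h1 h3 h4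
  generalize (r t - t * T) / (1 + T ^ 2) = s at h1 h2 h3 h4
  rcases hT.eq_or_lt with rfl | hT
  · simpa using e_nn h ht.1 ht.2.le le_rfl
  have hc1 : c ≤ 1 := (abs_le.1 ((sq_le_one_iff_abs_le_one c).1 (by nlinarith))).2
  have htc : t ≤ c := by nlinarith [mul_pos h2 hT]
  have ht' : t ∈ Icc (0 : ℝ) 1 := ⟨ht.1, ht.2.le⟩
  have hc' : c ∈ Icc (0 : ℝ) 1 := ⟨ht.1.trans htc, hc1⟩
  rw [← intervalIntegral.integral_add_adjacent_intervals (ie h ht' hc') (ie h hc' ⟨zero_le_one, le_rfl⟩)]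
  have e1 := e_nn h hc'.1 hc1 le_rfl
  have e2 : ∫ τ in t..c, ((c - τ) / s) ^ 2 ≤ ∫ τ in t..c, (τ ^ 2 + r τ ^ 2 - 1) := by
    refine intervalIntegral.integral_mono_on htc (by apply Continuous.intervalIntegrable; fun_prop)
      (ie h ht' hc') fun τ hτ => ?_
    have e3 := chord h (l := (c - τ) / (s * T)) ⟨by linarith [ht.1], ht.2.le⟩ h1 h2.le h3 h4
      (div_nonneg (sub_nonneg.2 hτ.2) (mul_pos h2 hT).le)
      (by rw [div_le_one (mul_pos h2 hT)]; linarith [hτ.1])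
    have e4 : (c - τ) / (s * T) * T = (c - τ) / s := by field_simp
    have e5 : c - s * ((c - τ) / s) = τ := by field_simp; ring
    rwa [e4, e5] at e3
  have e6 : ((c - t) ^ 3 - (c - c) ^ 3) / (3 * s ^ 2) = s * T ^ 3 / 3 := by
    rw [show c - t = s * T by linarith]
    field_simp
    ring
  rw [isq, e6] at e2
  linarith

theorem left (h : Prof r) {t T : ℝ} (ht : t ∈ Ico (0 : ℝ) 1) (hT : 0 ≤ T)
    (hT2 : T ^ 2 = t ^ 2 + r t ^ 2 - 1) (hy : r t ≤ 1) :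
    (r t + t * T) / (1 + T ^ 2) * T ^ 3 / 3 ≤ ∫ τ in (0 : ℝ)..t, (τ ^ 2 + r τ ^ 2 - 1) := by
  obtain ⟨h1, h2, h3, h4⟩ := facts h (S := -T) ht (by rw [neg_sq, hT2])
  have hy0 := h.nonneg (t := t) ⟨by linarith [ht.1], ht.2.le⟩
  have hc0 : 0 ≤ (t + r t * -T) / (1 + (-T) ^ 2) := by
    refine div_nonneg ?_ (by positivity)
    have e1 : 0 ≤ (t ^ 2 + r t ^ 2) * (1 - r t ^ 2) :=
      mul_nonneg (by positivity) (by nlinarith)
    have e2 : (r t * T) ^ 2 ≤ t ^ 2 := by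
      rw [mul_pow, hT2]
      nlinarith
    linarith [(abs_le.1 (abs_le_of_sq_le_sq e2 ht.1)).2]
  rw [show (r t + t * T) / (1 + T ^ 2) = (r t - t * -T) / (1 + (-T) ^ 2) by ring]
  generalize (t + r t * -T) / (1 + (-T) ^ 2) = c at h1 h3 h4 hc0
  generalize (r t - t * -T) / (1 + (-T) ^ 2) = s at h1 h2 h3 h4
  rcases hT.eq_or_lt with rfl | hT
  · simpa using e_nn h le_rfl ht.1 ht.2.le
  have htc : c ≤ t := by nlinarith [mul_pos h2 hT]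
  have ht' : t ∈ Icc (0 : ℝ) 1 := ⟨ht.1, ht.2.le⟩
  have hc' : c ∈ Icc (0 : ℝ) 1 := ⟨hc0, htc.trans ht.2.le⟩
  rw [← intervalIntegral.integral_add_adjacent_intervals (ie h ⟨le_rfl, zero_le_one⟩ hc') (ie h hc' ht')]
  have e1 := e_nn h le_rfl hc0 hc'.2
  have e2 : ∫ τ in c..t, ((c - τ) / s) ^ 2 ≤ ∫ τ in c..t, (τ ^ 2 + r τ ^ 2 - 1) := by
    refine intervalIntegral.integral_mono_on htc (by apply Continuous.intervalIntegrable; fun_prop)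
      (ie h hc' ht') fun τ hτ => ?_
    have e3 := chord h (l := (τ - c) / (s * T)) ⟨by linarith [ht.1], ht.2.le⟩ h1 h2.le h3 h4
      (div_nonneg (sub_nonneg.2 hτ.1) (mul_pos h2 hT).le)
      (by rw [div_le_one (mul_pos h2 hT)]; linarith [hτ.2])
    have e4 : (τ - c) / (s * T) * -T = (c - τ) / s := by field_simp; ring
    have e5 : c - s * ((c - τ) / s) = τ := by field_simp; ring
    rwa [e4, e5] at e3
  have e6 : ((c - c) ^ 3 - (c - t) ^ 3) / (3 * s ^ 2) = s * T ^ 3 / 3 := by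
    rw [show c - t = -(s * T) by linarith]
    field_simp
    ring
  rw [isq, e6] at e2
  linarith

theorem left' (h : Prof r) {t : ℝ} (ht : t ∈ Ico (0 : ℝ) 1) :
    t ^ 3 / 3 + (r t ^ 2 - 1) * t ≤ ∫ τ in (0 : ℝ)..t, (τ ^ 2 + r τ ^ 2 - 1) := by
  have ht' : t ∈ Icc (0 : ℝ) 1 := ⟨ht.1, ht.2.le⟩
  have hy0 := h.nonneg (t := t) ⟨by linarith [ht.1], ht.2.le⟩
  have e2 : ∫ τ in (0 : ℝ)..t, (τ ^ 2 + (r t ^ 2 - 1)) ≤ ∫ τ in (0 : ℝ)..t, (τ ^ 2 + r τ ^ 2 - 1) := by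
    refine intervalIntegral.integral_mono_on ht.1 (by apply Continuous.intervalIntegrable; fun_prop)
      (ie h ⟨le_rfl, zero_le_one⟩ ht') fun τ hτ => ?_
    have e3 := pow_le_pow_left₀ hy0 (h.anti ⟨hτ.1, hτ.2.trans ht'.2⟩ ht' hτ.2) 2
    linarith
  rw [intervalIntegral.integral_add ((continuous_pow 2).intervalIntegrable _ _)
    intervalIntegrable_const, integral_pow, intervalIntegral.integral_const, smul_eq_mul] at e2
  norm_num at e2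
  linarith

theorem tot (h : Prof r) {t : ℝ} (ht : t ∈ Ico (0 : ℝ) 1) :
    (∫ τ in (0 : ℝ)..t, (τ ^ 2 + r τ ^ 2 - 1)) + ∫ τ in t..1, (τ ^ 2 + r τ ^ 2 - 1) =
      (∫ τ in (0 : ℝ)..1, r τ ^ 2) - 2 / 3 := by
  have ht' : t ∈ Icc (0 : ℝ) 1 := ⟨ht.1, ht.2.le⟩
  have e1 := h.ii 0 2 (a := 0) (b := 1) ⟨le_rfl, zero_le_one⟩ ⟨zero_le_one, le_rfl⟩
  simp only [pow_zero, one_mul] at e1
  rw [intervalIntegral.integral_add_adjacent_intervals (ie h ⟨le_rfl, zero_le_one⟩ ht')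
    (ie h ht' ⟨zero_le_one, le_rfl⟩), intervalIntegral.integral_sub
    (((continuous_pow 2).intervalIntegrable _ _).add e1) intervalIntegrable_const,
    intervalIntegral.integral_add ((continuous_pow 2).intervalIntegrable _ _) e1, integral_pow]
  norm_num
  ring

end Tent

theorem Prof.tent1 (h : Prof r) {t T : ℝ} (ht : t ∈ Ico (0 : ℝ) 1) (hT : 0 ≤ T)
    (hT2 : T ^ 2 = t ^ 2 + r t ^ 2 - 1) (hy : r t ≤ 1) :
    r t * T ^ 3 / (1 + T ^ 2) ≤ 3 / 2 * (∫ τ in (0 : ℝ)..1, r τ ^ 2) - 1 := by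
  have e1 := Tent.right h ht hT hT2
  have e2 := Tent.left h ht hT hT2 hy
  have e3 := Tent.tot h ht
  have e4 : r t * T ^ 3 / (1 + T ^ 2) = 3 / 2 * ((r t - t * T) / (1 + T ^ 2) * T ^ 3 / 3 +
      (r t + t * T) / (1 + T ^ 2) * T ^ 3 / 3) := by ring
  linarith

theorem Prof.tent2 (h : Prof r) {t T : ℝ} (ht : t ∈ Ico (0 : ℝ) 1) (hT : 0 ≤ T)
    (hT2 : T ^ 2 = t ^ 2 + r t ^ 2 - 1) :
    (r t - t * T) / (1 + T ^ 2) * T ^ 3 / 2 + t ^ 3 / 2 + 3 / 2 * (r t ^ 2 - 1) * t ≤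
      3 / 2 * (∫ τ in (0 : ℝ)..1, r τ ^ 2) - 1 := by
  have e1 := Tent.right h ht hT hT2
  have e2 := Tent.left' h ht
  have e3 := Tent.tot h ht
  linarith

end Vale.Agent.P237C
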